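import Vale.Agent.P154.N.MergeN
import Vale.Agent.P154.Q.GWA

namespace Vale.Agent.P154Q

open Finset Filter Topology
open Vale.Agent.P154 (Shape pois gw mGW gw_nonneg hasSum_gw hasSum_cmul hasSum_pi hasSum_shape
  hasSum_gw_sum summable_gw_mul mGW_nonneg mGW_mono sq_mGW_le pois_pos surv surv_zero_or_one
  surv_nonneg surv_le_one surv_succ_le mGW_tendsto)

variable {q : ℕ} [hq : Fact (2 ≤ q)]

theorem lam_add_nonneg {lam : ℝ} (h0 : -(1 / ((q : ℝ) - 1)) ≤ lam) :
    0 ≤ lam + (1 - lam) / q := by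
  have hq0 := q_pos (q := q)
  have hq1 := q_sub_pos (q := q)
  have e : lam + (1 - lam) / q = (lam * ((q : ℝ) - 1) + 1) / q := by
    field_simp
    ring
  rw [e]
  refine div_nonneg ?_ hq0.le
  have h2 : -(1 / ((q : ℝ) - 1)) * ((q : ℝ) - 1) ≤ lam * ((q : ℝ) - 1) :=
    mul_le_mul_of_nonneg_right h0 hq1.le
  have h3 : -(1 / ((q : ℝ) - 1)) * ((q : ℝ) - 1) = -1 := by
    field_simp
  linarith

theorem chan_nonnegN {lam : ℝ} (h0 : -(1 / ((q : ℝ) - 1)) ≤ lam) (h1 : lam ≤ 1) (i j : Fin q) :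
    0 ≤ chan q lam i j := by
  unfold chan
  have h2 : 0 ≤ (1 - lam) / q := div_nonneg (by linarith) q_pos.le
  have h3 := lam_add_nonneg (q := q) h0
  split_ifs
  · linarith
  · linarith

theorem leafLawT_nonnegN {lam : ℝ} (h0 : -(1 / ((q : ℝ) - 1)) ≤ lam) (h1 : lam ≤ 1) :
    ∀ (n : ℕ) (T : Shape n) (i : Fin q) (c : Cfg q n T), 0 ≤ leafLawT q lam n T i c
  | 0, _, i, c => by
    show 0 ≤ (if (show Fin q from c) = i then (1 : ℝ) else 0)
    split_ifs <;> norm_num
  | n + 1, ⟨k, t⟩, i, c =>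
    Finset.prod_nonneg fun j _ => Finset.sum_nonneg fun s _ =>
      mul_nonneg (chan_nonnegN h0 h1 i s) (leafLawT_nonnegN h0 h1 n (t j) s (c j))

theorem margT_nonnegN {lam : ℝ} (h0 : -(1 / ((q : ℝ) - 1)) ≤ lam) (h1 : lam ≤ 1) (n : ℕ)
    (T : Shape n) (c : Cfg q n T) : 0 ≤ margT q lam n T c :=
  Finset.sum_nonneg fun i _ =>
    mul_nonneg (div_pos one_pos q_pos).le (leafLawT_nonnegN h0 h1 n T i c)

theorem aT_nonnegN {lam : ℝ} (h0 : -(1 / ((q : ℝ) - 1)) ≤ lam) (h1 : lam ≤ 1) (n : ℕ)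
    (T : Shape n) : 0 ≤ aT q lam n T :=
  Finset.sum_nonneg fun c _ => mul_nonneg (margT_nonnegN h0 h1 n T c)
    (mul_nonneg (by norm_num) (Finset.sum_nonneg fun i _ => abs_nonneg _))

theorem aT_le_oneN {lam : ℝ} (h0 : -(1 / ((q : ℝ) - 1)) ≤ lam) (h1 : lam ≤ 1) (n : ℕ)
    (T : Shape n) : aT q lam n T ≤ 1 := by
  rw [← margT_sum (q := q) lam n T]
  refine Finset.sum_le_sum fun c _ => ?_
  have hm := margT_nonnegN h0 h1 n T c
  refine mul_le_of_le_one_right hm ?_
  have hq1 : (0 : ℝ) < 1 / q := div_pos one_pos q_pos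
  have hp : ∀ i, 0 ≤ postT q lam n T i c := fun i =>
    div_nonneg (mul_nonneg hq1.le (leafLawT_nonnegN h0 h1 n T i c)) hm
  have hs : ∑ i, postT q lam n T i c ≤ 1 := by
    unfold postT
    rw [← Finset.sum_div]
    exact div_self_le_one _
  have hb : ∑ i : Fin q, |postT q lam n T i c - 1 / q| ≤
      ∑ i : Fin q, (postT q lam n T i c + 1 / q) :=
    Finset.sum_le_sum fun i _ => by
      rw [abs_le]
      constructor <;> linarith [hp i]
  rw [Finset.sum_add_distrib] at hb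
  simp only [Finset.sum_const, Finset.card_univ, Fintype.card_fin, nsmul_eq_mul] at hb
  have e : (q : ℝ) * (1 / q) = 1 := by
    have := q_ne (q := q)
    field_simp
  rw [e] at hb
  linarith

variable {Lam : ℝ → Prop} {C : V q → Prop} {o g1 h1 : V q → ℝ} {Ga : V q → V q → ℝ} {m₁ m₂ : ℕ}

theorem good0N_lkT (D : ConeDataN q Lam C o g1 h1 Ga m₁ m₂) {lam : ℝ} (hl : Lam lam) :
    ∀ (n : ℕ) (T : Shape n), Good0 (lkT q lam n T)
  | 0, _ => good0_zero
  | n + 1, ⟨k, t⟩ => by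
    have ih := fun j => good0N_lkT D hl n (t j)
    have hG := fun j => goodN_chan D (ih j) hl
    rw [lkT_succ]
    exact (good_pwD fun j => (hG j).good).good0

/-- the tree-wise recursion -/
theorem xTN_succ_le (D : ConeDataN q Lam C o g1 h1 Ga m₁ m₂) {lam κ : ℝ}
    (hl : Lam lam) (hκ : 0 ≤ κ)
    (hgain : ∀ p r : V q, InClosed p → InClosed r →
      κ * (aF p ^ m₁ * aF r ^ m₂) ≤ Ga (chanP lam p) (chanP lam r))
    (n k : ℕ) (t : Fin k → Shape n) :
    xT q lam (n + 1) ⟨k, t⟩ ≤ lam ^ 2 * ∑ j, xT q lam n (t j)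
      - κ * (if k = 2 then ∏ j : Fin k, xT q lam n (t j) ^ (if (j : ℕ) = 0 then m₁ else m₂)
        else 0) := by
  have ih := fun j => good0N_lkT D hl n (t j)
  have hG := fun j => goodN_chan D (ih j) hl
  have hsum : ∑ j, Ex (fun c => chanV lam (lkT q lam n (t j) c)) aF
      = lam ^ 2 * ∑ j, xT q lam n (t j) := by
    rw [Finset.mul_sum]
    exact Finset.sum_congr rfl fun j _ => Ex_chan_a (ih j) lam
  unfold xT at hsum ⊢
  rw [lkT_succ]
  split_ifs with hk
  · subst hk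
    have key := ExN_pwD_two_a_le D hG
    rw [hsum] at key
    refine key.trans ?_
    have hγ := ExG_chan_ge (ih 0) (ih 1) hκ hgain
    rw [Fin.prod_univ_two]
    simp only [Fin.val_zero, Fin.val_one, if_true, one_ne_zero, if_false]
    linarith
  · have key := ExN_pwD_a_le D hG
    rw [hsum] at key
    rw [mul_zero, sub_zero]
    exact key

/-- nonreconstruction on the Poisson Galton-Watson tree for every parameter satisfying `Lam` -/
theorem gw_nonreconstructionN (D : ConeDataN q Lam C o g1 h1 Ga m₁ m₂) {d lam : ℝ}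
    (hd : 0 < d) (hl : Lam lam) (hKS : d * lam ^ 2 ≤ 1) :
    (∀ n, Summable fun T => gw d n T * aT q lam n T) ∧ Tendsto (aGW q d lam) atTop (𝓝 0) := by
  have h0 : -(1 / ((q : ℝ) - 1)) ≤ lam := (D.lam_lo lam hl).le
  have h1 : lam < 1 := D.lam_hi lam hl
  refine ⟨fun n => summable_gw_mul hd.le (aT_nonnegN h0 h1.le n) (aT_le_oneN h0 h1.le n), ?_⟩
  have hgood := fun n T => good0N_lkT D hl n T
  have hx0 : ∀ n T, 0 ≤ xT q lam n T := fun n T => Ex_a_nonneg (hgood n T)
  have hx1 : ∀ n T, xT q lam n T ≤ 1 := fun n T => Ex_a_le_one (hgood n T)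
  have ha0 := aT_nonnegN (q := q) h0 h1.le
  have ha1 := aT_le_oneN (q := q) h0 h1.le
  have hsq : ∀ n T, (aT q lam n T) ^ 2 ≤ ((q : ℝ) - 1) / 4 * xT q lam n T := fun n T => by
    rw [aT_eq]
    exact sq_Ex_tv_le (hgood n T)
  have hx : Tendsto (fun n => mGW d n (xT q lam n)) atTop (𝓝 0) := by
    by_cases hz : lam = 0
    · have hrec := xTN_succ_le D (κ := 0) hl le_rfl (fun p r hp hr => by
        rw [zero_mul]
        exact D.Ga_nonneg _ _ (D.C_simplex _ (D.C_chan lam hl p hp)) (D.C_chan lam hl r hr))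
      have : ∀ n, mGW d (n + 1) (xT q lam (n + 1)) = 0 := by
        intro n
        have h2 := mGW_rec_pow hd.le le_rfl hx0 hx1 hrec n
        have h3 : lam ^ 2 = 0 := by rw [hz]; norm_num
        rw [h3] at h2
        simp only [mul_zero, zero_mul, sub_zero] at h2
        exact le_antisymm h2 (mGW_nonneg hd.le (hx0 _))
      rw [← tendsto_add_atTop_iff_nat 1]
      simp only [this]
      exact tendsto_const_nhds
    · obtain ⟨κ, hκ, hgain⟩ := D.gain lam hl hz
      have hrec := xTN_succ_le D hl hκ.le hgain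
      refine tendsto_zero_of_rec_pow (c := κ * pois d 2) (m := m₁ + m₂)
        (mul_pos hκ (pois_pos hd 2)) (fun n => mGW_nonneg hd.le (hx0 n)) fun n => ?_
      have h2 := mGW_rec_pow hd.le hκ.le hx0 hx1 hrec n
      have h3 := mul_le_mul_of_nonneg_right hKS (mGW_nonneg hd.le (hx0 n))
      linarith
  refine tendsto_of_sq_le (C := ((q : ℝ) - 1) / 4) (fun n => mGW_nonneg hd.le (ha0 n))
    (fun n => ?_) hx
  have s1 := sq_mGW_le hd.le (ha0 n) (ha1 n) (y := fun T => (aT q lam n T) ^ 2)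
    (fun T => pow_le_one₀ (ha0 n T) (ha1 n T)) (fun T => le_rfl)
  refine s1.trans ?_
  have sa := (summable_gw_mul hd.le (h := fun T => (aT q lam n T) ^ 2)
    (fun T => sq_nonneg _) (fun T => pow_le_one₀ (ha0 n T) (ha1 n T))).hasSum
  have sx := hasSum_cmul (summable_gw_mul hd.le (hx0 n) (hx1 n)).hasSum (((q : ℝ) - 1) / 4)
  refine hasSum_le (fun T => ?_) sa sx
  have := mul_le_mul_of_nonneg_left (hsq n T) (gw_nonneg hd.le n T)
  linarith

end Vale.Agent.P154Q
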