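import Vale.Agent.P154.Q.Tree

namespace Vale.Agent.P154Q

variable {q : ℕ}

/-- One-sided cone data. The first argument of a merge is an accumulated merge (any point of the
open simplex, cone functional `o`); the second one ranges over a set `C` of messages containing
every output of a channel whose parameter satisfies `Lam` (negative parameters allowed), and `o`
is nonnegative at every point of `C`. -/
structure ConeDataN (q : ℕ) (Lam : ℝ → Prop) (C : V q → Prop) (o g1 h1 : V q → ℝ)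
    (Ga : V q → V q → ℝ) (m₁ m₂ : ℕ) : Prop where
  lam_lo : ∀ lam, Lam lam → -(1 / ((q : ℝ) - 1)) < lam
  lam_hi : ∀ lam, Lam lam → lam < 1
  C_simplex : ∀ r, C r → InSimplex r
  C_chan : ∀ lam, Lam lam → ∀ p : V q, InClosed p → C (chanP lam p)
  o_unif : 0 ≤ o (fun _ => 1 / q)
  o_child : ∀ r, C r → 0 ≤ o r
  g1_nonneg : ∀ r, C r → 0 ≤ g1 r
  h1_nonneg : ∀ r, C r → 0 ≤ h1 r
  Ga_nonneg : ∀ p r, InSimplex p → C r → 0 ≤ Ga p r
  j1 : ∀ p r, InSimplex p → C r → avgM aF p r ≤ aF p + aF r - o p * g1 r - Ga p r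
  j2 : ∀ p r, InSimplex p → C r → o p * h1 r ≤ avgM o p r
  gain : ∀ lam, Lam lam → lam ≠ 0 → ∃ κ : ℝ, 0 < κ ∧
    ∀ p r : V q, InClosed p → InClosed r →
      κ * (aF p ^ m₁ * aF r ^ m₂) ≤ Ga (chanP lam p) (chanP lam r)

end Vale.Agent.P154Q
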