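import Vale.Agent.P154.N.Poly3

namespace Vale.Agent.P154N

theorem chk1 : chkN T1S 8 128 = true := by decide +kernel

theorem chk2 : chkN T2S 11 176 = true := by decide +kernel

theorem chkO : chkN TOS 4 64 = true := by decide +kernel

end Vale.Agent.P154N
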