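import Vale.Agent.P154.N.Poly3
import Vale.Agent.P154.N.AlgN

namespace Vale.Agent.P154N

open Vale.Agent.P154Q Finset

/-- the cubic invariant for three states: on the plane of sum one it is nine halves of the sum of
the cubes of `p i - 1 / 3` -/
noncomputable def A3q (p : V 3) : ℝ := (9 * ∑ i, p i ^ 3 - 9 * ∑ i, p i ^ 2 + 2) / 2

/-- the cone functional for accumulated merges -/
noncomputable def oA (p : V 3) : ℝ := 2 * A3q p + 243 / 500 * aF p - 43 / 20 * aF p ^ 2

/-- messages coming out of a channel with parameter above `-11/56` and at most `0` -/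
def InChN (r : V 3) : Prop := (∀ i, r i < 67 / 168) ∧ ∑ i, r i = 1

def LamN (lam : ℝ) : Prop := -(11 / 56) < lam ∧ lam ≤ 0

noncomputable def h1N (r : V 3) : ℝ := 1 - 4 * aF r

noncomputable def GaN (p r : V 3) : ℝ := 1 / 1000 * (aF p * aF r)

/-- sum over all relabelings of the polynomial bound for the first average -/
noncomputable def Phi1 (p r : V 3) : ℝ :=
  ∑ s : Equiv.Perm (Fin 3), f1G opsR (∑ i, p i * r (s i)) (∑ i, (p i * r (s i)) ^ 2) 1

/-- sum over all relabelings of the polynomial bound for the second average -/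
noncomputable def Phi2 (p r : V 3) : ℝ :=
  ∑ s : Equiv.Perm (Fin 3), f2G opsR (∑ i, p i * r (s i)) (∑ i, (p i * r (s i)) ^ 2)
    (∑ i, (p i * r (s i)) ^ 3) 1

end Vale.Agent.P154N
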