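import Vale.Agent.P154.N.Defs3
import Vale.Agent.P154.Bridge

namespace Vale.Agent.P154N

open Vale.Agent.P154Q Finset Equiv

private theorem sum_reindex (p r : V 3) (g g' : Perm (Fin 3)) (h : ℝ → ℝ → ℝ)
    (s : Perm (Fin 3)) :
    ∑ i, h ((p ∘ g) i) ((r ∘ g') (s i)) = ∑ j, h (p j) (r ((g' * s * g⁻¹) j)) := by
  rw [← Equiv.sum_comp g (fun j => h (p j) (r ((g' * s * g⁻¹) j)))]
  simp [Perm.mul_apply]

private theorem sum_conj (g g' : Perm (Fin 3)) (F : Perm (Fin 3) → ℝ) :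
    ∑ s, F (g' * s * g⁻¹) = ∑ s, F s :=
  Equiv.sum_comp ((Equiv.mulLeft g').trans (Equiv.mulRight g⁻¹)) F

theorem Phi1_comp (p r : V 3) (g g' : Perm (Fin 3)) : Phi1 (p ∘ g) (r ∘ g') = Phi1 p r := by
  unfold Phi1
  have h1 : ∀ s : Perm (Fin 3), ∑ i, (p ∘ g) i * (r ∘ g') (s i)
      = ∑ j, p j * r ((g' * s * g⁻¹) j) :=
    fun s => sum_reindex p r g g' (fun a b => a * b) s
  have h2 : ∀ s : Perm (Fin 3), ∑ i, ((p ∘ g) i * (r ∘ g') (s i)) ^ 2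
      = ∑ j, (p j * r ((g' * s * g⁻¹) j)) ^ 2 :=
    fun s => sum_reindex p r g g' (fun a b => (a * b) ^ 2) s
  simp_rw [h1, h2]
  exact sum_conj g g' (fun s => f1G opsR (∑ j, p j * r (s j)) (∑ j, (p j * r (s j)) ^ 2) 1)

theorem Phi2_comp (p r : V 3) (g g' : Perm (Fin 3)) : Phi2 (p ∘ g) (r ∘ g') = Phi2 p r := by
  unfold Phi2
  have h1 : ∀ s : Perm (Fin 3), ∑ i, (p ∘ g) i * (r ∘ g') (s i)
      = ∑ j, p j * r ((g' * s * g⁻¹) j) :=
    fun s => sum_reindex p r g g' (fun a b => a * b) s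
  have h2 : ∀ s : Perm (Fin 3), ∑ i, ((p ∘ g) i * (r ∘ g') (s i)) ^ 2
      = ∑ j, (p j * r ((g' * s * g⁻¹) j)) ^ 2 :=
    fun s => sum_reindex p r g g' (fun a b => (a * b) ^ 2) s
  have h3 : ∀ s : Perm (Fin 3), ∑ i, ((p ∘ g) i * (r ∘ g') (s i)) ^ 3
      = ∑ j, (p j * r ((g' * s * g⁻¹) j)) ^ 3 :=
    fun s => sum_reindex p r g g' (fun a b => (a * b) ^ 3) s
  simp_rw [h1, h2, h3]
  exact sum_conj g g' (fun s => f2G opsR (∑ j, p j * r (s j)) (∑ j, (p j * r (s j)) ^ 2)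
    (∑ j, (p j * r (s j)) ^ 3) 1)

theorem aF_comp3 (p : V 3) (g : Perm (Fin 3)) : aF (p ∘ g) = aF p := by
  unfold aF
  rw [show ∑ i, (p ∘ g) i ^ 2 = ∑ i, p i ^ 2 from Equiv.sum_comp g (fun i => p i ^ 2)]

theorem oA_comp3 (p : V 3) (g : Perm (Fin 3)) : oA (p ∘ g) = oA p := by
  unfold oA A3q
  rw [aF_comp3, show ∑ i, (p ∘ g) i ^ 2 = ∑ i, p i ^ 2 from Equiv.sum_comp g (fun i => p i ^ 2),
    show ∑ i, (p ∘ g) i ^ 3 = ∑ i, p i ^ 3 from Equiv.sum_comp g (fun i => p i ^ 3)]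

theorem Phi1_eq (p r : V 3) : Phi1 p r =
    six opsR (fun b0 b1 b2 => t1G opsR (p 0) (p 1) (p 2) b0 b1 b2 1) (r 0) (r 1) (r 2) := by
  unfold Phi1
  rw [Vale.Agent.P154.sum_perm3]
  simp only [Fin.sum_univ_three, Vale.Agent.P154.p01.1, Vale.Agent.P154.p01.2.1,
    Vale.Agent.P154.p01.2.2, Vale.Agent.P154.p02.1, Vale.Agent.P154.p02.2.1,
    Vale.Agent.P154.p02.2.2, Vale.Agent.P154.p12.1, Vale.Agent.P154.p12.2.1,
    Vale.Agent.P154.p12.2.2, Vale.Agent.P154.pc1.1, Vale.Agent.P154.pc1.2.1,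
    Vale.Agent.P154.pc1.2.2, Vale.Agent.P154.pc2.1, Vale.Agent.P154.pc2.2.1,
    Vale.Agent.P154.pc2.2.2, Perm.one_apply]
  simp only [six, t1G, SyG, QyG, sum3, pow_two]
  rfl

theorem Phi2_eq (p r : V 3) : Phi2 p r =
    six opsR (fun b0 b1 b2 => t2G opsR (p 0) (p 1) (p 2) b0 b1 b2 1) (r 0) (r 1) (r 2) := by
  unfold Phi2
  rw [Vale.Agent.P154.sum_perm3]
  simp only [Fin.sum_univ_three, Vale.Agent.P154.p01.1, Vale.Agent.P154.p01.2.1,
    Vale.Agent.P154.p01.2.2, Vale.Agent.P154.p02.1, Vale.Agent.P154.p02.2.1,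
    Vale.Agent.P154.p02.2.2, Vale.Agent.P154.p12.1, Vale.Agent.P154.p12.2.1,
    Vale.Agent.P154.p12.2.2, Vale.Agent.P154.pc1.1, Vale.Agent.P154.pc1.2.1,
    Vale.Agent.P154.pc1.2.2, Vale.Agent.P154.pc2.1, Vale.Agent.P154.pc2.2.1,
    Vale.Agent.P154.pc2.2.2, Perm.one_apply]
  have e3 : ∀ a : ℝ, a ^ 3 = a * (a * a) := fun a => by ring
  simp only [six, t2G, SyG, QyG, CyG, sum3, pow_two, e3]
  rfl

/-- increasing rearrangement -/
theorem exists_mono3 (p : V 3) : ∃ g : Perm (Fin 3), p (g 0) ≤ p (g 1) ∧ p (g 1) ≤ p (g 2) := by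
  have hm := Tuple.monotone_sort p
  exact ⟨Tuple.sort p, hm (by decide : (0 : Fin 3) ≤ 1), hm (by decide : (1 : Fin 3) ≤ 2)⟩

/-- sorted coordinates on the open simplex -/
theorem sortedP3 {p : V 3} (hp : InSimplex p) (h01 : p 0 ≤ p 1) (h12 : p 1 ≤ p 2) :
    ∃ k x y : ℝ, 0 < k ∧ 0 ≤ x ∧ 0 ≤ y ∧ p 0 = k * 1 ∧ p 1 = k * (1 + x) ∧
      p 2 = k * (1 + x + y) ∧ 1 = k * (3 + 2 * x + y) := by
  have hk : 0 < p 0 := hp.1 0
  have hs : p 0 + p 1 + p 2 = 1 := by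
    have := hp.2
    rwa [Fin.sum_univ_three] at this
  have hne : p 0 ≠ 0 := hk.ne'
  refine ⟨p 0, (p 1 - p 0) / p 0, (p 2 - p 1) / p 0, hk, div_nonneg (by linarith) hk.le,
    div_nonneg (by linarith) hk.le, by ring, ?_, ?_, ?_⟩
  · field_simp
    ring
  · field_simp
    ring
  · field_simp
    linarith

/-- sorted coordinates on the set of channel outputs -/
theorem sortedR3 {r : V 3} (hr : InChN r) (h01 : r 0 ≤ r 1) (h12 : r 1 ≤ r 2) :
    ∃ l z w : ℝ, 0 < l ∧ 0 ≤ z ∧ 0 ≤ w ∧ r 0 = l * (168 + 101 * z + 34 * w) ∧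
      r 1 = l * (168 + 101 * z + 67 * w) ∧ r 2 = l * (168 + 134 * z + 67 * w) ∧
      1 = l * (504 + 336 * z + 168 * w) := by
  have hs : r 0 + r 1 + r 2 = 1 := by
    have := hr.2
    rwa [Fin.sum_univ_three] at this
  have h2 : r 2 < 67 / 168 := hr.1 2
  obtain ⟨tau, htau⟩ : ∃ tau : ℝ, tau = (67 / 168 - r 2) * (56 / 11) := ⟨_, rfl⟩
  have hpos : 0 < tau := by
    rw [htau]
    exact mul_pos (by linarith) (by norm_num)
  have hne : tau ≠ 0 := hpos.ne'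
  refine ⟨tau / 168, (r 2 - r 1) * (56 / 11) / tau, (r 1 - r 0) * (56 / 11) / tau,
    by positivity, div_nonneg (mul_nonneg (by linarith) (by norm_num)) hpos.le,
    div_nonneg (mul_nonneg (by linarith) (by norm_num)) hpos.le, ?_, ?_, ?_, ?_⟩
  · have : tau / 168 * (168 + 101 * ((r 2 - r 1) * (56 / 11) / tau)
        + 34 * ((r 1 - r 0) * (56 / 11) / tau))
        = tau + 101 / 33 * (r 2 - r 1) + 34 / 33 * (r 1 - r 0) := by
      field_simp
      ring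
    rw [this, htau]
    linear_combination ((67 : ℝ) / 33) * hs
  · have : tau / 168 * (168 + 101 * ((r 2 - r 1) * (56 / 11) / tau)
        + 67 * ((r 1 - r 0) * (56 / 11) / tau))
        = tau + 101 / 33 * (r 2 - r 1) + 67 / 33 * (r 1 - r 0) := by
      field_simp
      ring
    rw [this, htau]
    linear_combination ((67 : ℝ) / 33) * hs
  · have : tau / 168 * (168 + 134 * ((r 2 - r 1) * (56 / 11) / tau)
        + 67 * ((r 1 - r 0) * (56 / 11) / tau))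
        = tau + 134 / 33 * (r 2 - r 1) + 67 / 33 * (r 1 - r 0) := by
      field_simp
      ring
    rw [this, htau]
    linear_combination ((67 : ℝ) / 33) * hs
  · have : tau / 168 * (504 + 336 * ((r 2 - r 1) * (56 / 11) / tau)
        + 168 * ((r 1 - r 0) * (56 / 11) / tau))
        = 3 * tau + 336 / 33 * (r 2 - r 1) + 168 / 33 * (r 1 - r 0) := by
      field_simp
      ring
    rw [this, htau]
    linear_combination ((168 : ℝ) / 33) * hs

end Vale.Agent.P154N
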