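import Vale.Agent.P154.N.Sound3
import Vale.Agent.P154.N.Chk3

namespace Vale.Agent.P154N

open MvPolynomial Vale.Agent.P154Q

theorem opsR_add (a b : ℝ) : opsR.add a b = a + b := rfl
theorem opsR_mul (a b : ℝ) : opsR.mul a b = a * b := rfl
theorem opsR_sub (a b : ℝ) : opsR.sub a b = a - b := rfl
theorem opsR_cst (c : ℤ) : opsR.cst c = (c : ℝ) := rfl

theorem powR (a : ℝ) : ∀ n, powG opsR a n = a ^ n
  | 0 => by simp [powG, opsR_cst]
  | n + 1 => by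
    show a * powG opsR a n = a ^ (n + 1)
    rw [powR a n]
    ring

section cert
variable {x y z w : ℝ}

theorem vec_nonneg (hx : 0 ≤ x) (hy : 0 ≤ y) (hz : 0 ≤ z) (hw : 0 ≤ w) :
    ∀ i : Fin 4, 0 ≤ (![x, y, z, w] : Fin 4 → ℝ) i := by
  intro i
  fin_cases i <;> simpa

theorem val_lfP (x y z w : ℝ) (a b c : ℕ) :
    (lfP a b c (![x, y, z, w] : Fin 4 → ℝ)).1 - (lfP a b c (![x, y, z, w] : Fin 4 → ℝ)).2
      = a + b * x + c * y := by
  simp [lfP]

theorem val_lfR (x y z w : ℝ) (a b c : ℕ) :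
    (lfR a b c (![x, y, z, w] : Fin 4 → ℝ)).1 - (lfR a b c (![x, y, z, w] : Fin 4 → ℝ)).2
      = a + b * z + c * w := by
  simp [lfR]

theorem G1_nonneg (hx : 0 ≤ x) (hy : 0 ≤ y) (hz : 0 ≤ z) (hw : 0 ≤ w) :
    0 ≤ G1G opsR 1 (1 + x) (1 + x + y) (3 + 2 * x + y) (168 + 101 * z + 34 * w)
      (168 + 101 * z + 67 * w) (168 + 134 * z + 67 * w) (504 + 336 * z + 168 * w) := by
  have h := nonneg_of_chk (fun {S} _ v => T1S v) (fun φ => map_T1S φ X) 8 128 (by norm_num)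
    (8, 8) le_rfl le_rfl dg_T1S chk1 ![x, y, z, w] (vec_nonneg hx hy hz hw)
  have e := rel_G1G relVal (val_lfP x y z w 1 0 0) (val_lfP x y z w 1 1 0)
    (val_lfP x y z w 1 1 1) (val_lfP x y z w 3 2 1) (val_lfR x y z w 168 101 34) (val_lfR x y z w 168 101 67)
    (val_lfR x y z w 168 134 67) (val_lfR x y z w 504 336 168)
  have e' : (T1S (![x, y, z, w] : Fin 4 → ℝ)).1 - (T1S (![x, y, z, w] : Fin 4 → ℝ)).2 = _ := e
  rw [e'] at h
  norm_num at h
  exact h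

theorem G2_nonneg (hx : 0 ≤ x) (hy : 0 ≤ y) (hz : 0 ≤ z) (hw : 0 ≤ w) :
    0 ≤ G2G opsR 1 (1 + x) (1 + x + y) (3 + 2 * x + y) (168 + 101 * z + 34 * w)
      (168 + 101 * z + 67 * w) (168 + 134 * z + 67 * w) (504 + 336 * z + 168 * w) := by
  have h := nonneg_of_chk (fun {S} _ v => T2S v) (fun φ => map_T2S φ X) 11 176 (by norm_num)
    (11, 11) le_rfl le_rfl dg_T2S chk2 ![x, y, z, w] (vec_nonneg hx hy hz hw)
  have e := relVal.mul (relVal.mul (val_lfP x y z w 3 2 1)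
      (val_lfR x y z w 504 336 168))
    (rel_G2G relVal (val_lfP x y z w 1 0 0) (val_lfP x y z w 1 1 0)
    (val_lfP x y z w 1 1 1) (val_lfP x y z w 3 2 1) (val_lfR x y z w 168 101 34) (val_lfR x y z w 168 101 67)
    (val_lfR x y z w 168 134 67) (val_lfR x y z w 504 336 168))
  have e' : (T2S (![x, y, z, w] : Fin 4 → ℝ)).1 - (T2S (![x, y, z, w] : Fin 4 → ℝ)).2 = _ := e
  rw [e', opsR_mul, opsR_mul] at h
  norm_num at h
  have hpos : 0 < (3 + 2 * x + y) * (504 + 336 * z + 168 * w) := by positivity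
  exact nonneg_of_mul_nonneg_right h hpos

theorem O4_nonneg (hz : 0 ≤ z) (hw : 0 ≤ w) :
    0 ≤ O4G opsR (168 + 101 * z + 34 * w) (168 + 101 * z + 67 * w) (168 + 134 * z + 67 * w)
      (504 + 336 * z + 168 * w) := by
  have h := nonneg_of_chk (fun {S} _ v => TOS v) (fun φ => map_TOS φ X) 4 64 (by norm_num)
    (0, 4) (by norm_num) le_rfl dg_TOS chkO ![0, 0, z, w] (vec_nonneg le_rfl le_rfl hz hw)
  have e := rel_O4G relVal (val_lfR 0 0 z w 168 101 34)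
    (val_lfR 0 0 z w 168 101 67) (val_lfR 0 0 z w 168 134 67) (val_lfR 0 0 z w 504 336 168)
  have e' : (TOS (![0, 0, z, w] : Fin 4 → ℝ)).1 - (TOS (![0, 0, z, w] : Fin 4 → ℝ)).2 = _ := e
  rw [e'] at h
  norm_num at h
  exact h

end cert

/-! ### homogeneity -/

theorem a2_scale (k v0 v1 v2 s : ℝ) :
    a2G opsR (k * v0) (k * v1) (k * v2) (k * s) = k ^ 2 * a2G opsR v0 v1 v2 s := by
  simp only [a2G, sum3, opsR_add, opsR_mul, opsR_sub, opsR_cst]
  ring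

theorem A2_scale (k v0 v1 v2 s : ℝ) :
    A2G opsR (k * v0) (k * v1) (k * v2) (k * s) = k ^ 3 * A2G opsR v0 v1 v2 s := by
  simp only [A2G, sum3, opsR_add, opsR_mul, opsR_sub, opsR_cst]
  ring

theorem O4_scale (k v0 v1 v2 s : ℝ) :
    O4G opsR (k * v0) (k * v1) (k * v2) (k * s) = k ^ 4 * O4G opsR v0 v1 v2 s := by
  simp only [O4G, a2_scale, A2_scale, opsR_add, opsR_mul, opsR_sub, opsR_cst]
  ring

theorem hom_scale (m c0 c1 c2 c3 c4 c5 e : ℤ) (c t Y : ℝ) :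
    homG opsR m c0 c1 c2 c3 c4 c5 e (c * t) (c * Y)
      = c ^ 6 * homG opsR m c0 c1 c2 c3 c4 c5 e t Y := by
  simp only [homG, powR, opsR_add, opsR_mul, opsR_sub, opsR_cst]
  ring

theorem f1_scale (c S Q Y : ℝ) :
    f1G opsR (c * S) (c ^ 2 * Q) (c * Y) = c ^ 8 * f1G opsR S Q Y := by
  have e : (3 : ℝ) * (c * S) - c * Y = c * (3 * S - Y) := by ring
  simp only [f1G, U1G, powR, opsR_add, opsR_mul, opsR_sub, opsR_cst]
  push_cast
  rw [e, hom_scale]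
  ring

theorem f2_scale (c S Q C Y : ℝ) :
    f2G opsR (c * S) (c ^ 2 * Q) (c ^ 3 * C) (c * Y) = c ^ 10 * f2G opsR S Q C Y := by
  have e : (3 : ℝ) * (c * S) - c * Y = c * (3 * S - Y) := by ring
  simp only [f2G, U1G, L2G, U3G, powR, opsR_add, opsR_mul, opsR_sub, opsR_cst]
  push_cast
  rw [e, hom_scale, hom_scale, hom_scale]
  ring

theorem t1_scale (k l a0 a1 a2 b0 b1 b2 s t : ℝ) :
    t1G opsR (k * a0) (k * a1) (k * a2) (l * b0) (l * b1) (l * b2) (k * s * (l * t))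
      = (k * l) ^ 8 * t1G opsR a0 a1 a2 b0 b1 b2 (s * t) := by
  have e1 : SyG opsR (k * a0) (k * a1) (k * a2) (l * b0) (l * b1) (l * b2)
      = (k * l) * SyG opsR a0 a1 a2 b0 b1 b2 := by
    simp only [SyG, sum3, opsR_add, opsR_mul]
    ring
  have e2 : QyG opsR (k * a0) (k * a1) (k * a2) (l * b0) (l * b1) (l * b2)
      = (k * l) ^ 2 * QyG opsR a0 a1 a2 b0 b1 b2 := by
    simp only [QyG, sum3, opsR_add, opsR_mul]
    ring
  have e3 : k * s * (l * t) = (k * l) * (s * t) := by ring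
  unfold t1G
  rw [e1, e2, e3, f1_scale]

theorem t2_scale (k l a0 a1 a2 b0 b1 b2 s t : ℝ) :
    t2G opsR (k * a0) (k * a1) (k * a2) (l * b0) (l * b1) (l * b2) (k * s * (l * t))
      = (k * l) ^ 10 * t2G opsR a0 a1 a2 b0 b1 b2 (s * t) := by
  have e1 : SyG opsR (k * a0) (k * a1) (k * a2) (l * b0) (l * b1) (l * b2)
      = (k * l) * SyG opsR a0 a1 a2 b0 b1 b2 := by
    simp only [SyG, sum3, opsR_add, opsR_mul]
    ring
  have e2 : QyG opsR (k * a0) (k * a1) (k * a2) (l * b0) (l * b1) (l * b2)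
      = (k * l) ^ 2 * QyG opsR a0 a1 a2 b0 b1 b2 := by
    simp only [QyG, sum3, opsR_add, opsR_mul]
    ring
  have e4 : CyG opsR (k * a0) (k * a1) (k * a2) (l * b0) (l * b1) (l * b2)
      = (k * l) ^ 3 * CyG opsR a0 a1 a2 b0 b1 b2 := by
    simp only [CyG, sum3, opsR_add, opsR_mul]
    ring
  have e3 : k * s * (l * t) = (k * l) * (s * t) := by ring
  unfold t2G
  rw [e1, e2, e4, e3, f2_scale]

theorem G1_scale (k l p0 p1 p2 s r0 r1 r2 t : ℝ) :
    G1G opsR (k * p0) (k * p1) (k * p2) (k * s) (l * r0) (l * r1) (l * r2) (l * t)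
      = k ^ 8 * l ^ 8 * G1G opsR p0 p1 p2 s r0 r1 r2 t := by
  simp only [G1G, six, powR, opsR_add, opsR_mul, opsR_sub, opsR_cst, a2_scale, O4_scale, t1_scale]
  ring

theorem G2_scale (k l p0 p1 p2 s r0 r1 r2 t : ℝ) :
    G2G opsR (k * p0) (k * p1) (k * p2) (k * s) (l * r0) (l * r1) (l * r2) (l * t)
      = k ^ 10 * l ^ 10 * G2G opsR p0 p1 p2 s r0 r1 r2 t := by
  simp only [G2G, six, powR, opsR_add, opsR_mul, opsR_sub, opsR_cst, a2_scale, O4_scale, t2_scale]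
  ring

end Vale.Agent.P154N
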