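import Vale.Agent.P154.N.Defs3
import Vale.Agent.P154.N.Real3

namespace Vale.Agent.P154N

open Vale.Agent.P154Q Finset

theorem f1G_one (S Q : ℝ) : f1G opsR S Q 1 = 27 * Q * (17 * (1 - (3 * S - 1) + (3 * S - 1) ^ 2
    - (3 * S - 1) ^ 3 + (3 * S - 1) ^ 4 - (3 * S - 1) ^ 5) + 28 * (3 * S - 1) ^ 6) - 51 * S := by
  simp only [f1G, U1G, homG, powR, opsR_add, opsR_mul, opsR_sub, opsR_cst]
  push_cast
  ring

theorem f2G_one (S Q C : ℝ) : f2G opsR S Q C 1 =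
    165240 * C * (100 * (1 - 2 * (3 * S - 1) + 3 * (3 * S - 1) ^ 2 - 4 * (3 * S - 1) ^ 3
      + 5 * (3 * S - 1) ^ 4 - 6 * (3 * S - 1) ^ 5) + 571 * (3 * S - 1) ^ 6)
    - 181656 * Q * (17 * (1 - (3 * S - 1) + (3 * S - 1) ^ 2 - (3 * S - 1) ^ 3 + (3 * S - 1) ^ 4
      - (3 * S - 1) ^ 5) + 28 * (3 * S - 1) ^ 6)
    - 532899 * Q ^ 2 * (50 * (1 - 3 * (3 * S - 1) + 6 * (3 * S - 1) ^ 2 - 10 * (3 * S - 1) ^ 3
      + 15 * (3 * S - 1) ^ 4 - 21 * (3 * S - 1) ^ 5) + 2767 * (3 * S - 1) ^ 6)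
    + 248778 * S := by
  simp only [f2G, U1G, L2G, U3G, homG, powR, opsR_add, opsR_mul, opsR_sub, opsR_cst]
  push_cast
  ring

theorem bU1 {t : ℝ} (h1 : -(11 / 28) ≤ t) :
    1 / (1 + t) ≤ (17 * (1 - t + t ^ 2 - t ^ 3 + t ^ 4 - t ^ 5) + 28 * t ^ 6) / 17 := by
  have hp : 0 < 1 + t := by linarith
  rw [div_le_div_iff₀ hp (by norm_num)]
  have h : 0 ≤ t ^ 6 * (28 * (1 + t) - 17) := mul_nonneg (by positivity) (by linarith)
  nlinarith

theorem bL2 {t : ℝ} (h1 : -(11 / 28) ≤ t) (h2 : t ≤ 11 / 56) :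
    (100 * (1 - 2 * t + 3 * t ^ 2 - 4 * t ^ 3 + 5 * t ^ 4 - 6 * t ^ 5) + 571 * t ^ 6) / 100
      ≤ 1 / (1 + t) ^ 2 := by
  have hp : 0 < 1 + t := by linarith
  rw [div_le_div_iff₀ (by norm_num) (by positivity)]
  have hq : 0 ≤ 100 * (7 + 6 * t) - 571 * (1 + t) ^ 2 := by
    nlinarith [mul_nonneg (sub_nonneg.2 h1) (sub_nonneg.2 h2)]
  have h : 0 ≤ t ^ 6 * (100 * (7 + 6 * t) - 571 * (1 + t) ^ 2) := mul_nonneg (by positivity) hq
  nlinarith

theorem bU3 {t : ℝ} (h1 : -(11 / 28) ≤ t) :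
    1 / (1 + t) ^ 3 ≤ (50 * (1 - 3 * t + 6 * t ^ 2 - 10 * t ^ 3 + 15 * t ^ 4 - 21 * t ^ 5)
      + 2767 * t ^ 6) / 50 := by
  have hp : 0 < 1 + t := by linarith
  rw [div_le_div_iff₀ (by positivity) (by norm_num)]
  have hq : 0 ≤ 2767 * (1 + t) ^ 3 - 50 * (28 + 48 * t + 21 * t ^ 2) := by
    obtain ⟨v, hv, rfl⟩ : ∃ v : ℝ, 0 ≤ v ∧ t = -(11 / 28) + v := ⟨t + 11 / 28, by linarith, by ring⟩
    have : 2767 * (1 + (-(11 / 28) + v)) ^ 3 - 50 * (28 + 48 * (-(11 / 28) + v)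
        + 21 * (-(11 / 28) + v) ^ 2) = 2767 * v ^ 3 + (2767 * 51 / 28 - 1050) * v ^ 2
        + (2767 * 867 / 784 - 1575) * v + (2767 * 4913 / 21952 - 34675 / 56) := by ring
    rw [this]
    have e1 : (0 : ℝ) ≤ 2767 * 51 / 28 - 1050 := by norm_num
    have e2 : (0 : ℝ) ≤ 2767 * 867 / 784 - 1575 := by norm_num
    have e3 : (0 : ℝ) ≤ 2767 * 4913 / 21952 - 34675 / 56 := by norm_num
    positivity
  have h : 0 ≤ t ^ 6 * (2767 * (1 + t) ^ 3 - 50 * (28 + 48 * t + 21 * t ^ 2)) :=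
    mul_nonneg (by positivity) hq
  nlinarith


theorem id_a3 (p w : V 3) (hS : 0 < ∑ i, p i * w i) :
    Dm p w * aF (merge p w)
      = (27 * (∑ i, (p i * w i) ^ 2) * (1 / (3 * ∑ i, p i * w i)) - 3 * ∑ i, p i * w i) / 2 := by
  unfold Dm aF merge
  simp only [div_pow, ← Finset.sum_div]
  set S := ∑ i, p i * w i with hSd
  set Q := ∑ i, (p i * w i) ^ 2 with hQd
  have hne : S ≠ 0 := hS.ne'
  push_cast
  field_simp
  ring

theorem id_o3 (p w : V 3) (hS : 0 < ∑ i, p i * w i) :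
    Dm p w * oA (merge p w)
      = 243 * (∑ i, (p i * w i) ^ 3) * (1 / (3 * ∑ i, p i * w i) ^ 2)
        - 22707 / 500 * (∑ i, (p i * w i) ^ 2) * (1 / (3 * ∑ i, p i * w i))
        - 31347 / 80 * (∑ i, (p i * w i) ^ 2) ^ 2 * (1 / (3 * ∑ i, p i * w i) ^ 3)
        + 2439 / 2000 * (3 * ∑ i, p i * w i) := by
  unfold Dm oA A3q aF merge
  simp only [div_pow, ← Finset.sum_div]
  set S := ∑ i, p i * w i with hSd
  set Q := ∑ i, (p i * w i) ^ 2 with hQd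
  set C := ∑ i, (p i * w i) ^ 3 with hCd
  have hne : S ≠ 0 := hS.ne'
  push_cast
  field_simp
  ring

theorem inChN_lo {r : V 3} (hr : InChN r) (i : Fin 3) : 34 / 168 < r i := by
  have hs := hr.2
  rw [Fin.sum_univ_three] at hs
  have h0 := hr.1 0
  have h1 := hr.1 1
  have h2 := hr.1 2
  fin_cases i <;> simp only [Fin.zero_eta, Fin.mk_one, Fin.reduceFinMk] <;> linarith

theorem S_range {p r : V 3} (hp : InSimplex p) (hr : InChN r) (s : Equiv.Perm (Fin 3)) :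
    34 / 168 ≤ ∑ i, p i * r (s i) ∧ ∑ i, p i * r (s i) ≤ 67 / 168 := by
  constructor
  · have : ∑ i, p i * (34 / 168) ≤ ∑ i, p i * r (s i) :=
      Finset.sum_le_sum fun i _ => mul_le_mul_of_nonneg_left (inChN_lo hr (s i)).le (hp.1 i).le
    rw [← Finset.sum_mul, hp.2] at this
    linarith
  · have : ∑ i, p i * r (s i) ≤ ∑ i, p i * (67 / 168) :=
      Finset.sum_le_sum fun i _ => mul_le_mul_of_nonneg_left (hr.1 (s i)).le (hp.1 i).le
    rw [← Finset.sum_mul, hp.2] at this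
    linarith

theorem term_a3 {p r : V 3} (hp : InSimplex p) (hr : InChN r) (s : Equiv.Perm (Fin 3)) :
    Dm p (r ∘ s) * aF (merge p (r ∘ s))
      ≤ f1G opsR (∑ i, p i * r (s i)) (∑ i, (p i * r (s i)) ^ 2) 1 / 34 := by
  obtain ⟨l1, l2⟩ := S_range hp hr s
  have hS : 0 < ∑ i, p i * (r ∘ s) i := by
    simp only [Function.comp]
    linarith
  rw [id_a3 p (r ∘ s) hS, f1G_one]
  simp only [Function.comp]
  set S := ∑ i, p i * r (s i) with hSd
  set Q := ∑ i, (p i * r (s i)) ^ 2 with hQd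
  have hQ : 0 ≤ Q := Finset.sum_nonneg fun i _ => sq_nonneg _
  have hb := bU1 (t := 3 * S - 1) (by linarith)
  have e : 1 + (3 * S - 1) = 3 * S := by ring
  rw [e] at hb
  have := mul_le_mul_of_nonneg_left hb hQ
  linarith

theorem term_o3 {p r : V 3} (hp : InSimplex p) (hr : InChN r) (s : Equiv.Perm (Fin 3)) :
    f2G opsR (∑ i, p i * r (s i)) (∑ i, (p i * r (s i)) ^ 2) (∑ i, (p i * r (s i)) ^ 3) 1 / 68000
      ≤ Dm p (r ∘ s) * oA (merge p (r ∘ s)) := by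
  obtain ⟨l1, l2⟩ := S_range hp hr s
  have hS : 0 < ∑ i, p i * (r ∘ s) i := by
    simp only [Function.comp]
    linarith
  rw [id_o3 p (r ∘ s) hS, f2G_one]
  simp only [Function.comp]
  have hC : 0 ≤ ∑ i, (p i * r (s i)) ^ 3 := Finset.sum_nonneg fun i _ =>
    pow_nonneg (mul_nonneg (hp.1 i).le (lt_trans (by norm_num) (inChN_lo hr (s i))).le) 3
  set S := ∑ i, p i * r (s i) with hSd
  set Q := ∑ i, (p i * r (s i)) ^ 2 with hQd
  set C := ∑ i, (p i * r (s i)) ^ 3 with hCd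
  have hQ : 0 ≤ Q := Finset.sum_nonneg fun i _ => sq_nonneg _
  have e : 1 + (3 * S - 1) = 3 * S := by ring
  have b1 := bU1 (t := 3 * S - 1) (by linarith)
  have b2 := bL2 (t := 3 * S - 1) (by linarith) (by linarith)
  have b3 := bU3 (t := 3 * S - 1) (by linarith)
  rw [e] at b1 b2 b3
  have c1 := mul_le_mul_of_nonneg_left b1 hQ
  have c2 := mul_le_mul_of_nonneg_left b2 hC
  have c3 := mul_le_mul_of_nonneg_left b3 (sq_nonneg Q)
  linarith

theorem avgM_aF_le3 {p r : V 3} (hp : InSimplex p) (hr : InChN r) :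
    avgM aF p r ≤ Phi1 p r / 204 := by
  unfold avgM Phi1
  have c : ((Nat.factorial 3 : ℕ) : ℝ) = 6 := by norm_num [Nat.factorial]
  rw [c, div_le_div_iff₀ (by norm_num) (by norm_num)]
  have := Finset.sum_le_sum fun s (_ : s ∈ (Finset.univ : Finset (Equiv.Perm (Fin 3)))) =>
    term_a3 hp hr s
  rw [← Finset.sum_div] at this
  linarith

theorem le_avgM_oA3 {p r : V 3} (hp : InSimplex p) (hr : InChN r) :
    Phi2 p r / 408000 ≤ avgM oA p r := by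
  unfold avgM Phi2
  have c : ((Nat.factorial 3 : ℕ) : ℝ) = 6 := by norm_num [Nat.factorial]
  rw [c, div_le_div_iff₀ (by norm_num) (by norm_num)]
  have := Finset.sum_le_sum fun s (_ : s ∈ (Finset.univ : Finset (Equiv.Perm (Fin 3)))) =>
    term_o3 hp hr s
  rw [← Finset.sum_div] at this
  linarith

end Vale.Agent.P154N
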