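import Vale.Agent.P154.N.Real3
import Vale.Agent.P154.N.Terms3
import Vale.Agent.P154.N.Sym3

namespace Vale.Agent.P154N

open Vale.Agent.P154Q Finset Equiv

theorem a2_eq (p : V 3) : a2G opsR (p 0) (p 1) (p 2) 1 = 2 * aF p := by
  simp only [a2G, sum3, opsR_add, opsR_mul, opsR_sub, opsR_cst]
  unfold aF
  rw [Fin.sum_univ_three]
  push_cast
  ring

theorem A2_eq (p : V 3) : A2G opsR (p 0) (p 1) (p 2) 1 = 2 * A3q p := by
  simp only [A2G, sum3, opsR_add, opsR_mul, opsR_sub, opsR_cst]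
  unfold A3q
  rw [Fin.sum_univ_three, Fin.sum_univ_three]
  push_cast
  ring

theorem O4_eq (p : V 3) : O4G opsR (p 0) (p 1) (p 2) 1 = 4000 * oA p := by
  simp only [O4G, a2_eq, A2_eq, opsR_add, opsR_mul, opsR_sub, opsR_cst]
  unfold oA
  push_cast
  ring

theorem G1_eq (p r : V 3) : G1G opsR (p 0) (p 1) (p 2) 1 (r 0) (r 1) (r 2) 1
    = 408000 * (aF p + aF r - oA p * aF r - GaN p r) - 2000 * Phi1 p r := by
  rw [Phi1_eq]
  simp only [G1G, powR, a2_eq, O4_eq, opsR_add, opsR_mul, opsR_sub, opsR_cst, mul_one]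
  unfold GaN
  push_cast
  ring

theorem G2_eq (p r : V 3) : G2G opsR (p 0) (p 1) (p 2) 1 (r 0) (r 1) (r 2) 1
    = Phi2 p r - 408000 * (oA p * h1N r) := by
  rw [Phi2_eq]
  simp only [G2G, powR, a2_eq, O4_eq, opsR_add, opsR_mul, opsR_sub, opsR_cst, mul_one]
  unfold h1N
  push_cast
  ring

theorem inSimplex_comp3 {p : V 3} (h : InSimplex p) (g : Perm (Fin 3)) : InSimplex (p ∘ g) :=
  ⟨fun i => h.1 (g i), by rw [← h.2]; exact Equiv.sum_comp g p⟩

theorem inChN_comp {r : V 3} (h : InChN r) (g : Perm (Fin 3)) : InChN (r ∘ g) :=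
  ⟨fun i => h.1 (g i), by rw [← h.2]; exact Equiv.sum_comp g r⟩

theorem G1_sorted {p r : V 3} (hp : InSimplex p) (hr : InChN r) (p01 : p 0 ≤ p 1)
    (p12 : p 1 ≤ p 2) (r01 : r 0 ≤ r 1) (r12 : r 1 ≤ r 2) :
    0 ≤ G1G opsR (p 0) (p 1) (p 2) 1 (r 0) (r 1) (r 2) 1 := by
  obtain ⟨k, x, y, hk, hx, hy, e0, e1, e2, e3⟩ := sortedP3 hp p01 p12
  obtain ⟨l, z, w, hl, hz, hw, f0, f1, f2, f3⟩ := sortedR3 hr r01 r12
  have h := G1_scale k l 1 (1 + x) (1 + x + y) (3 + 2 * x + y) (168 + 101 * z + 34 * w)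
    (168 + 101 * z + 67 * w) (168 + 134 * z + 67 * w) (504 + 336 * z + 168 * w)
  rw [← e0, ← e1, ← e2, ← e3, ← f0, ← f1, ← f2, ← f3] at h
  rw [h]
  have := G1_nonneg hx hy hz hw
  positivity

theorem G2_sorted {p r : V 3} (hp : InSimplex p) (hr : InChN r) (p01 : p 0 ≤ p 1)
    (p12 : p 1 ≤ p 2) (r01 : r 0 ≤ r 1) (r12 : r 1 ≤ r 2) :
    0 ≤ G2G opsR (p 0) (p 1) (p 2) 1 (r 0) (r 1) (r 2) 1 := by
  obtain ⟨k, x, y, hk, hx, hy, e0, e1, e2, e3⟩ := sortedP3 hp p01 p12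
  obtain ⟨l, z, w, hl, hz, hw, f0, f1, f2, f3⟩ := sortedR3 hr r01 r12
  have h := G2_scale k l 1 (1 + x) (1 + x + y) (3 + 2 * x + y) (168 + 101 * z + 34 * w)
    (168 + 101 * z + 67 * w) (168 + 134 * z + 67 * w) (504 + 336 * z + 168 * w)
  rw [← e0, ← e1, ← e2, ← e3, ← f0, ← f1, ← f2, ← f3] at h
  rw [h]
  have := G2_nonneg hx hy hz hw
  positivity

theorem key1 {p r : V 3} (hp : InSimplex p) (hr : InChN r) :
    Phi1 p r / 204 ≤ aF p + aF r - oA p * aF r - GaN p r := by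
  obtain ⟨g, a1, a2⟩ := exists_mono3 p
  obtain ⟨g', b1, b2⟩ := exists_mono3 r
  have h := G1_sorted (inSimplex_comp3 hp g) (inChN_comp hr g') a1 a2 b1 b2
  rw [G1_eq, Phi1_comp] at h
  unfold GaN at h ⊢
  rw [aF_comp3, aF_comp3, oA_comp3] at h
  linarith

theorem key2 {p r : V 3} (hp : InSimplex p) (hr : InChN r) :
    oA p * h1N r ≤ Phi2 p r / 408000 := by
  obtain ⟨g, a1, a2⟩ := exists_mono3 p
  obtain ⟨g', b1, b2⟩ := exists_mono3 r
  have h := G2_sorted (inSimplex_comp3 hp g) (inChN_comp hr g') a1 a2 b1 b2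
  rw [G2_eq, Phi2_comp] at h
  unfold h1N at h ⊢
  rw [aF_comp3, oA_comp3] at h
  linarith

theorem oA_child {r : V 3} (hr : InChN r) : 0 ≤ oA r := by
  obtain ⟨g', b1, b2⟩ := exists_mono3 r
  obtain ⟨l, z, w, hl, hz, hw, f0, f1, f2, f3⟩ := sortedR3 (inChN_comp hr g') b1 b2
  have h := O4_scale l (168 + 101 * z + 34 * w) (168 + 101 * z + 67 * w)
    (168 + 134 * z + 67 * w) (504 + 336 * z + 168 * w)
  rw [← f0, ← f1, ← f2, ← f3, O4_eq, oA_comp3] at h
  have h2 := O4_nonneg hz hw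
  have h3 : 0 ≤ l ^ 4 * O4G opsR (168 + 101 * z + 34 * w) (168 + 101 * z + 67 * w)
    (168 + 134 * z + 67 * w) (504 + 336 * z + 168 * w) := by positivity
  linarith

theorem inChN_pos {r : V 3} (hr : InChN r) (i : Fin 3) : 34 / 168 < r i := by
  have hs := hr.2
  rw [Fin.sum_univ_three] at hs
  have h0 := hr.1 0
  have h1 := hr.1 1
  have h2 := hr.1 2
  fin_cases i <;> simp only [Fin.zero_eta, Fin.mk_one, Fin.reduceFinMk] <;> linarith

theorem inChN_simplex {r : V 3} (hr : InChN r) : InSimplex r :=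
  ⟨fun i => lt_trans (by norm_num) (inChN_pos hr i), hr.2⟩

instance fact3 : Fact (2 ≤ 3) := ⟨by norm_num⟩

theorem aF_le_quarter {r : V 3} (hr : InChN r) : aF r ≤ 1 / 4 := by
  have hs := hr.2
  rw [Fin.sum_univ_three] at hs
  have h0 := hr.1 0
  have h1 := hr.1 1
  have h2 := hr.1 2
  have k0 := inChN_pos hr 0
  have k1 := inChN_pos hr 1
  have k2 := inChN_pos hr 2
  unfold aF
  rw [Fin.sum_univ_three]
  push_cast
  nlinarith [mul_nonneg (sub_nonneg.2 h0.le) (lt_trans (by norm_num) k0).le,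
    mul_nonneg (sub_nonneg.2 h1.le) (lt_trans (by norm_num) k1).le,
    mul_nonneg (sub_nonneg.2 h2.le) (lt_trans (by norm_num) k2).le]

/-- the one-sided cone data for three states and channel parameters in the range `LamN` -/
theorem coneData3N : ConeDataN 3 LamN InChN oA aF h1N GaN 1 1 where
  lam_lo := fun lam h => by
    have := h.1
    push_cast
    norm_num
    linarith
  lam_hi := fun lam h => by linarith [h.2]
  C_simplex := fun r hr => inChN_simplex hr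
  C_chan := fun lam h p hp => by
    refine ⟨fun i => ?_, sum_chanP lam hp.2⟩
    unfold chanP
    have h1 := mul_nonneg (neg_nonneg.2 h.2) (hp.1 i)
    have h2 := h.1
    push_cast
    linarith
  o_unif := by
    unfold oA A3q aF
    simp only [Fin.sum_univ_three]
    push_cast
    norm_num
  o_child := fun r hr => oA_child hr
  g1_nonneg := fun r hr => aF_nonneg' hr.2
  h1_nonneg := fun r hr => by
    have := aF_le_quarter hr
    unfold h1N
    linarith
  Ga_nonneg := fun p r hp hr => by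
    have h1 := aF_nonneg' hp.2
    have h2 := aF_nonneg' hr.2
    unfold GaN
    positivity
  j1 := fun p r hp hr => (avgM_aF_le3 hp hr).trans (key1 hp hr)
  j2 := fun p r hp hr => (key2 hp hr).trans (le_avgM_oA3 hp hr)
  gain := fun lam h hne => ⟨1 / 1000 * lam ^ 4, by positivity, fun p r hp hr => by
    unfold GaN
    rw [aF_chanP lam hp.2, aF_chanP lam hr.2, pow_one, pow_one]
    exact le_of_eq (by ring)⟩

end Vale.Agent.P154N
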