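import Vale.Agent.P154.N.AlgN
import Vale.Agent.P154.Q.MergeA

namespace Vale.Agent.P154Q

open Finset

variable {q : ℕ} [hq : Fact (2 ≤ q)] {X Y : Type} [Fintype X] [Fintype Y]

/-- a family all of whose posteriors lie in `C` -/
structure GoodN (C : V q → Prop) (l : X → V q) : Prop where
  good : Good l
  child : ∀ x, C (nrm (l x))

theorem lam_add_pos {lam : ℝ} (h0 : -(1 / ((q : ℝ) - 1)) < lam) : 0 < lam + (1 - lam) / q := by
  have hq0 := q_pos (q := q)
  have hq1 := q_sub_pos (q := q)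
  have e : lam + (1 - lam) / q = (lam * ((q : ℝ) - 1) + 1) / q := by
    field_simp
    ring
  rw [e]
  refine div_pos ?_ hq0
  have h2 : -(1 / ((q : ℝ) - 1)) * ((q : ℝ) - 1) < lam * ((q : ℝ) - 1) :=
    mul_lt_mul_of_pos_right h0 hq1
  have h3 : -(1 / ((q : ℝ) - 1)) * ((q : ℝ) - 1) = -1 := by
    field_simp
  linarith

/-- version of `good_chan` for parameters of either sign -/
theorem good_chanN {l : X → V q} (h : Good0 l) {lam : ℝ} (h0 : -(1 / ((q : ℝ) - 1)) < lam)
    (h1 : lam < 1) : Good (fun x => chanV lam (l x)) where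
  pos := fun x i => by
    rw [chanV_apply]
    have hz := h.zpos x
    have h2 := h.nonneg x i
    have h5 : l x i ≤ Zs (l x) :=
      Finset.single_le_sum (f := fun j => l x j) (fun j _ => h.nonneg x j) (Finset.mem_univ i)
    rcases le_or_gt 0 lam with hl | hl
    · have h3 : 0 < (1 - lam) / q * Zs (l x) := by
        apply mul_pos _ hz
        exact div_pos (by linarith) q_pos
      have h4 := mul_nonneg hl h2
      linarith
    · have h3 : 0 < (lam + (1 - lam) / q) * Zs (l x) := mul_pos (lam_add_pos h0) hz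
      have h4 : lam * Zs (l x) ≤ lam * l x i := mul_le_mul_of_nonpos_left h5 hl.le
      nlinarith
  norm := fun i => by
    simp only [chanV_apply, Finset.sum_add_distrib, ← Finset.mul_sum, h.norm]
    unfold Zs
    rw [Finset.sum_comm]
    simp only [h.norm]
    simp only [Finset.sum_const, Finset.card_univ, Fintype.card_fin, nsmul_eq_mul, mul_one]
    have := q_ne (q := q)
    field_simp
    ring
  symm := fun g H => by
    simp only [chanV_comp]
    exact h.symm g (fun u => H (chanV lam u))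

variable {Lam : ℝ → Prop} {C : V q → Prop} {o g1 h1 : V q → ℝ} {Ga : V q → V q → ℝ} {m₁ m₂ : ℕ}

theorem goodN_chan (D : ConeDataN q Lam C o g1 h1 Ga m₁ m₂) {l : X → V q} (h : Good0 l) {lam : ℝ}
    (hl : Lam lam) : GoodN C (fun x => chanV lam (l x)) where
  good := good_chanN h (D.lam_lo lam hl) (D.lam_hi lam hl)
  child := fun x => by
    rw [nrm_chanV lam (h.zpos x)]
    exact D.C_chan lam hl _ (nrm_closed h x)

theorem ExN_nonneg {l : X → V q} (h : GoodN C l) {f : V q → ℝ}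
    (hf : ∀ r, C r → 0 ≤ f r) : 0 ≤ Ex l f :=
  Finset.sum_nonneg fun x _ => mul_nonneg (weight_pos h.good x).le (hf _ (h.child x))

theorem ExN_o_nonneg (D : ConeDataN q Lam C o g1 h1 Ga m₁ m₂) {l : X → V q} (h : GoodN C l) :
    0 ≤ Ex l o :=
  ExN_nonneg h D.o_child

theorem ExGN_nonneg (D : ConeDataN q Lam C o g1 h1 Ga m₁ m₂) {l : X → V q}
    {l' : Y → V q} (h : Good l) (h' : GoodN C l') : 0 ≤ ExG l l' Ga :=
  Finset.sum_nonneg fun x _ => Finset.sum_nonneg fun y _ =>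
    mul_nonneg (mul_nonneg (weight_pos h x).le (weight_pos h'.good y).le)
      (D.Ga_nonneg _ _ (nrm_inSimplex (h.pos x)) (h'.child y))

theorem ExN_mfam_a_le (D : ConeDataN q Lam C o g1 h1 Ga m₁ m₂) {l : X → V q}
    {l' : Y → V q} (h : Good l) (h' : GoodN C l') :
    Ex (mfam l l') aF ≤ Ex l aF + Ex l' aF - Ex l o * Ex l' g1 - ExG l l' Ga := by
  rw [Ex_mfam h h'.good]
  have hb : ∀ x y, Zs (l x) / q * (Zs (l' y) / q) * avgM aF (nrm (l x)) (nrm (l' y)) ≤
      Zs (l x) / q * (Zs (l' y) / q) * (aF (nrm (l x)) * 1)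
      + Zs (l x) / q * (Zs (l' y) / q) * (1 * aF (nrm (l' y)))
      - Zs (l x) / q * (Zs (l' y) / q) * (o (nrm (l x)) * g1 (nrm (l' y)))
      - Zs (l x) / q * (Zs (l' y) / q) * Ga (nrm (l x)) (nrm (l' y)) := by
    intro x y
    have e1 := D.j1 _ _ (nrm_inSimplex (h.pos x)) (h'.child y)
    have e2 : 0 ≤ Zs (l x) / q * (Zs (l' y) / q) :=
      mul_nonneg (weight_pos h x).le (weight_pos h'.good y).le
    have e3 := mul_le_mul_of_nonneg_left e1 e2
    refine e3.trans (le_of_eq ?_)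
    ring
  refine (Finset.sum_le_sum fun x _ => Finset.sum_le_sum fun y _ => hb x y).trans (le_of_eq ?_)
  simp only [Finset.sum_sub_distrib, Finset.sum_add_distrib, sum_sum_mul]
  simp only [mul_one, sum_weights h, sum_weights h'.good, one_mul]
  unfold Ex ExG
  ring

theorem le_ExN_mfam_o (D : ConeDataN q Lam C o g1 h1 Ga m₁ m₂) {l : X → V q}
    {l' : Y → V q} (h : Good l) (h' : GoodN C l') :
    Ex l o * Ex l' h1 ≤ Ex (mfam l l') o := by
  rw [Ex_mfam h h'.good]
  have hb : ∀ x y,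
      Zs (l x) / q * (Zs (l' y) / q) * (o (nrm (l x)) * h1 (nrm (l' y))) ≤
      Zs (l x) / q * (Zs (l' y) / q) * avgM o (nrm (l x)) (nrm (l' y)) := by
    intro x y
    have e1 := D.j2 _ _ (nrm_inSimplex (h.pos x)) (h'.child y)
    have e2 : 0 ≤ Zs (l x) / q * (Zs (l' y) / q) :=
      mul_nonneg (weight_pos h x).le (weight_pos h'.good y).le
    exact mul_le_mul_of_nonneg_left e1 e2
  refine le_trans (le_of_eq ?_) (Finset.sum_le_sum fun x _ => Finset.sum_le_sum fun y _ => hb x y)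
  simp only [sum_sum_mul]
  unfold Ex
  ring

theorem ExN_mfam_o_nonneg (D : ConeDataN q Lam C o g1 h1 Ga m₁ m₂) {l : X → V q}
    {l' : Y → V q} (h : Good l) (h' : GoodN C l') (ho : 0 ≤ Ex l o) :
    0 ≤ Ex (mfam l l') o := by
  refine le_trans ?_ (le_ExN_mfam_o D h h')
  have e1 := ExN_nonneg h' (f := h1) D.h1_nonneg
  positivity

theorem ExN_mfam_a_le' (D : ConeDataN q Lam C o g1 h1 Ga m₁ m₂) {l : X → V q}
    {l' : Y → V q} (h : Good l) (h' : GoodN C l') (ho : 0 ≤ Ex l o) :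
    Ex (mfam l l') aF ≤ Ex l aF + Ex l' aF - ExG l l' Ga := by
  refine (ExN_mfam_a_le D h h').trans ?_
  have e1 := ExN_nonneg h' (f := g1) D.g1_nonneg
  have e4 := mul_nonneg ho e1
  linarith

theorem ExN_pwD_o_nonneg (D : ConeDataN q Lam C o g1 h1 Ga m₁ m₂) : ∀ {k : ℕ}
    {X : Fin k → Type} [∀ j, Fintype (X j)] {l : (j : Fin k) → X j → V q},
    (∀ j, GoodN C (l j)) → 0 ≤ Ex (pwD l) o
  | 0, X, _, l, _ => by rw [Ex_pwD_zero]; exact D.o_unif
  | k + 1, X, _, l, h => by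
    rw [Ex_pwD_succ, Ex_mfam_comm]
    have hG := good_pwD (l := fun j => l j.succ) fun j => (h j.succ).good
    have e1 := ExN_pwD_o_nonneg D (l := fun j => l j.succ) (fun j => h j.succ)
    exact ExN_mfam_o_nonneg D hG (h 0) e1

theorem ExN_pwD_a_le (D : ConeDataN q Lam C o g1 h1 Ga m₁ m₂) : ∀ {k : ℕ}
    {X : Fin k → Type} [∀ j, Fintype (X j)] {l : (j : Fin k) → X j → V q},
    (∀ j, GoodN C (l j)) → Ex (pwD l) aF ≤ ∑ j, Ex (l j) aF
  | 0, X, _, l, _ => by rw [Ex_pwD_zero, aF_unif]; simp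
  | k + 1, X, _, l, h => by
    rw [Ex_pwD_succ, Ex_mfam_comm, Fin.sum_univ_succ]
    have hG := good_pwD (l := fun j => l j.succ) fun j => (h j.succ).good
    have e0 := ExN_pwD_a_le D (l := fun j => l j.succ) (fun j => h j.succ)
    have e1 := ExN_pwD_o_nonneg D (l := fun j => l j.succ) (fun j => h j.succ)
    have e2 := ExN_mfam_a_le' D hG (h 0) e1
    have e3 := ExGN_nonneg D hG (h 0)
    linarith

theorem ExN_pwD_two_a_le (D : ConeDataN q Lam C o g1 h1 Ga m₁ m₂) {X : Fin 2 → Type}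
    [∀ j, Fintype (X j)] {l : (j : Fin 2) → X j → V q} (h : ∀ j, GoodN C (l j)) :
    Ex (pwD l) aF ≤ ∑ j, Ex (l j) aF - ExG (l 0) (l 1) Ga := by
  rw [Ex_pwD_two, Fin.sum_univ_two]
  exact ExN_mfam_a_le' D (h 0).good (h 1) (ExN_o_nonneg D (h 0))

/-- at least two families: subadditivity with a gain -/
theorem ExN_pwD_a_le_gain (D : ConeDataN q Lam C o g1 h1 Ga m₁ m₂) {γ : ℝ} :
    ∀ {m : ℕ} {X : Fin (m + 2) → Type} [∀ j, Fintype (X j)]
    {l : (j : Fin (m + 2)) → X j → V q},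
    (∀ j, GoodN C (l j)) → (∀ i j, i ≠ j → γ ≤ ExG (l i) (l j) Ga) →
    Ex (pwD l) aF ≤ ∑ j, Ex (l j) aF - γ
  | 0, X, _, l, h, hγ => by
    have e1 := ExN_pwD_two_a_le D h
    have e2 := hγ 0 1 (by decide)
    linarith
  | m + 1, X, _, l, h, hγ => by
    rw [Ex_pwD_succ, Ex_mfam_comm, Fin.sum_univ_succ]
    have hG := good_pwD (l := fun j => l j.succ) fun j => (h j.succ).good
    have e0 := ExN_pwD_a_le_gain D (l := fun j => l j.succ) (fun j => h j.succ)
      (fun i j hij => hγ i.succ j.succ (fun e => hij (Fin.succ_injective _ e)))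
    have e1 := ExN_pwD_o_nonneg D (l := fun j => l j.succ) (fun j => h j.succ)
    have e2 := ExN_mfam_a_le' D hG (h 0) e1
    have e3 := ExGN_nonneg D hG (h 0)
    linarith

end Vale.Agent.P154Q
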