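import Vale.Agent.P154.N.Poly3

namespace Vale.Agent.P154N

open MvPolynomial Vale.Agent.P154Q

/-- two interpretations of the operations are related by `R` -/
structure RelOps {α β : Type} (R : α → β → Prop) (O : Ops α) (O' : Ops β) : Prop where
  add : ∀ {a a' : α} {b b' : β}, R a b → R a' b' → R (O.add a a') (O'.add b b')
  mul : ∀ {a a' : α} {b b' : β}, R a b → R a' b' → R (O.mul a a') (O'.mul b b')
  sub : ∀ {a a' : α} {b b' : β}, R a b → R a' b' → R (O.sub a a') (O'.sub b b')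
  cst : ∀ c : ℤ, R (O.cst c) (O'.cst c)

section rel
variable {α β : Type} {R : α → β → Prop} {O : Ops α} {O' : Ops β} (H : RelOps R O O')
include H

theorem rel_pow {a : α} {b : β} (h : R a b) : ∀ n, R (powG O a n) (powG O' b n)
  | 0 => H.cst 1
  | n + 1 => H.mul h (rel_pow h n)

theorem rel_sum3 {a0 a1 a2 : α} {b0 b1 b2 : β} (h0 : R a0 b0) (h1 : R a1 b1) (h2 : R a2 b2) :
    R (sum3 O a0 a1 a2) (sum3 O' b0 b1 b2) := H.add (H.add h0 h1) h2

theorem rel_a2G {a0 a1 a2 s : α} {b0 b1 b2 t : β} (h0 : R a0 b0) (h1 : R a1 b1) (h2 : R a2 b2)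
    (hs : R s t) : R (a2G O a0 a1 a2 s) (a2G O' b0 b1 b2 t) := by
  unfold a2G
  repeat' (first | assumption | apply H.add | apply H.mul | apply H.sub | apply H.cst | apply rel_sum3 H)

theorem rel_A2G {a0 a1 a2 s : α} {b0 b1 b2 t : β} (h0 : R a0 b0) (h1 : R a1 b1) (h2 : R a2 b2)
    (hs : R s t) : R (A2G O a0 a1 a2 s) (A2G O' b0 b1 b2 t) := by
  unfold A2G
  repeat' (first | assumption | apply H.add | apply H.mul | apply H.sub | apply H.cst | apply rel_sum3 H)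

theorem rel_O4G {a0 a1 a2 s : α} {b0 b1 b2 t : β} (h0 : R a0 b0) (h1 : R a1 b1) (h2 : R a2 b2)
    (hs : R s t) : R (O4G O a0 a1 a2 s) (O4G O' b0 b1 b2 t) := by
  unfold O4G
  repeat' (first | assumption | apply H.add | apply H.mul | apply H.sub | apply H.cst | apply rel_a2G H | apply rel_A2G H)

theorem rel_homG (m c0 c1 c2 c3 c4 c5 e : ℤ) {t Y : α} {t' Y' : β} (ht : R t t') (hY : R Y Y') :
    R (homG O m c0 c1 c2 c3 c4 c5 e t Y) (homG O' m c0 c1 c2 c3 c4 c5 e t' Y') := by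
  unfold homG
  repeat' (first | assumption | apply H.add | apply H.mul | apply H.sub | apply H.cst | apply rel_pow H)

theorem rel_f1G {S Q Y : α} {S' Q' Y' : β} (hS : R S S') (hQ : R Q Q') (hY : R Y Y') :
    R (f1G O S Q Y) (f1G O' S' Q' Y') := by
  unfold f1G U1G
  repeat' (first | assumption | apply H.add | apply H.mul | apply H.sub | apply H.cst | apply rel_pow H | apply rel_homG H)

theorem rel_f2G {S Q C Y : α} {S' Q' C' Y' : β} (hS : R S S') (hQ : R Q Q') (hC : R C C')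
    (hY : R Y Y') : R (f2G O S Q C Y) (f2G O' S' Q' C' Y') := by
  unfold f2G U1G L2G U3G
  repeat' (first | assumption | apply H.add | apply H.mul | apply H.sub | apply H.cst | apply rel_pow H | apply rel_homG H)

theorem rel_t1G {a0 a1 a2 b0 b1 b2 Y : α} {a0' a1' a2' b0' b1' b2' Y' : β} (h0 : R a0 a0')
    (h1 : R a1 a1') (h2 : R a2 a2') (k0 : R b0 b0') (k1 : R b1 b1') (k2 : R b2 b2')
    (hY : R Y Y') : R (t1G O a0 a1 a2 b0 b1 b2 Y) (t1G O' a0' a1' a2' b0' b1' b2' Y') := by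
  unfold t1G SyG QyG
  repeat' (first | assumption | apply H.add | apply H.mul | apply H.sub | apply H.cst | apply rel_sum3 H | apply rel_f1G H)

theorem rel_t2G {a0 a1 a2 b0 b1 b2 Y : α} {a0' a1' a2' b0' b1' b2' Y' : β} (h0 : R a0 a0')
    (h1 : R a1 a1') (h2 : R a2 a2') (k0 : R b0 b0') (k1 : R b1 b1') (k2 : R b2 b2')
    (hY : R Y Y') : R (t2G O a0 a1 a2 b0 b1 b2 Y) (t2G O' a0' a1' a2' b0' b1' b2' Y') := by
  unfold t2G SyG QyG CyG
  repeat' (first | assumption | apply H.add | apply H.mul | apply H.sub | apply H.cst | apply rel_sum3 H | apply rel_f2G H)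

theorem rel_six {F : α → α → α → α} {F' : β → β → β → β}
    (hF : ∀ {a0 a1 a2 : α} {b0 b1 b2 : β}, R a0 b0 → R a1 b1 → R a2 b2 →
      R (F a0 a1 a2) (F' b0 b1 b2))
    {a0 a1 a2 : α} {b0 b1 b2 : β} (h0 : R a0 b0) (h1 : R a1 b1) (h2 : R a2 b2) :
    R (six O F a0 a1 a2) (six O' F' b0 b1 b2) := by
  unfold six
  repeat' (first | assumption | apply H.add | apply hF)

theorem rel_G1G {p0 p1 p2 s r0 r1 r2 t : α} {p0' p1' p2' s' r0' r1' r2' t' : β} (h0 : R p0 p0')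
    (h1 : R p1 p1') (h2 : R p2 p2') (hs : R s s') (k0 : R r0 r0') (k1 : R r1 r1')
    (k2 : R r2 r2') (ht : R t t') :
    R (G1G O p0 p1 p2 s r0 r1 r2 t) (G1G O' p0' p1' p2' s' r0' r1' r2' t') := by
  unfold G1G
  refine H.sub (H.sub (H.sub (H.add ?_ ?_) ?_) ?_) (H.mul (H.cst _) (rel_six H ?_ k0 k1 k2))
  rotate_right
  · intro a0 a1 a2 b0 b1 b2 e0 e1 e2
    exact rel_t1G H h0 h1 h2 e0 e1 e2 (H.mul hs ht)
  all_goals
    repeat' (first | assumption | apply H.add | apply H.mul | apply H.sub | apply H.cst | apply rel_pow H | apply rel_a2G H | apply rel_O4G H)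

theorem rel_G2G {p0 p1 p2 s r0 r1 r2 t : α} {p0' p1' p2' s' r0' r1' r2' t' : β} (h0 : R p0 p0')
    (h1 : R p1 p1') (h2 : R p2 p2') (hs : R s s') (k0 : R r0 r0') (k1 : R r1 r1')
    (k2 : R r2 r2') (ht : R t t') :
    R (G2G O p0 p1 p2 s r0 r1 r2 t) (G2G O' p0' p1' p2' s' r0' r1' r2' t') := by
  unfold G2G
  refine H.sub (rel_six H ?_ k0 k1 k2) ?_
  · intro a0 a1 a2 b0 b1 b2 e0 e1 e2
    exact rel_t2G H h0 h1 h2 e0 e1 e2 (H.mul hs ht)
  · repeat' (first | assumption | apply H.add | apply H.mul | apply H.sub | apply H.cst | apply rel_pow H | apply rel_a2G H | apply rel_O4G H)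

end rel

/-! ### the three relations -/

def mapP {S S' : Type} [CommSemiring S] [CommSemiring S'] (φ : S →+* S') (u : S × S) : S' × S' :=
  (φ u.1, φ u.2)

theorem relMap {S S' : Type} [CommSemiring S] [CommSemiring S'] (φ : S →+* S') :
    RelOps (fun u v => mapP φ u = v) (opsP S) (opsP S') where
  add := by
    rintro a a' _ _ rfl rfl
    simp [mapP, opsP]
  mul := by
    rintro a a' _ _ rfl rfl
    simp [mapP, opsP]
  sub := by
    rintro a a' _ _ rfl rfl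
    simp [mapP, opsP]
  cst := by
    intro c
    simp [mapP, opsP]

theorem relVal : RelOps (fun (u : ℝ × ℝ) (v : ℝ) => u.1 - u.2 = v) (opsP ℝ) opsR where
  add := by
    rintro a a' _ _ rfl rfl
    simp only [opsP, opsR]
    ring
  mul := by
    rintro a a' _ _ rfl rfl
    simp only [opsP, opsR]
    ring
  sub := by
    rintro a a' _ _ rfl rfl
    simp only [opsP, opsR]
    ring
  cst := by
    intro c
    simp only [opsP, opsR]
    have h := Int.toNat_sub_toNat_neg c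
    exact_mod_cast h

abbrev MP := MvPolynomial (Fin 4) ℕ

def bd (k : ℕ × ℕ) (i : Fin 4) : ℕ := if (i : ℕ) < 2 then k.1 else k.2

theorem bd_max (k l : ℕ × ℕ) (i : Fin 4) :
    bd (max k.1 l.1, max k.2 l.2) i = max (bd k i) (bd l i) := by
  unfold bd
  split_ifs <;> rfl

theorem bd_add (k l : ℕ × ℕ) (i : Fin 4) : bd (k.1 + l.1, k.2 + l.2) i = bd k i + bd l i := by
  unfold bd
  split_ifs <;> rfl

def DgR (u : MP × MP) (k : ℕ × ℕ) : Prop := ∀ i, u.1.degreeOf i ≤ bd k i ∧ u.2.degreeOf i ≤ bd k i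

theorem dg_add {f g : MP} {i : Fin 4} {a b : ℕ} (hf : f.degreeOf i ≤ a) (hg : g.degreeOf i ≤ b) :
    (f + g).degreeOf i ≤ max a b :=
  (degreeOf_add_le i f g).trans (max_le_max hf hg)

theorem dg_mul {f g : MP} {i : Fin 4} {a b : ℕ} (hf : f.degreeOf i ≤ a) (hg : g.degreeOf i ≤ b) :
    (f * g).degreeOf i ≤ a + b :=
  (degreeOf_mul_le i f g).trans (add_le_add hf hg)

theorem dg_nat (n : ℕ) (i : Fin 4) : ((n : MP)).degreeOf i = 0 := by
  have e : (n : MP) = C n := by simp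
  rw [e, degreeOf_C]

theorem relDeg : RelOps DgR (opsP MP) opsD where
  add := by
    intro a a' b b' h h' i
    simp only [opsP, opsD, bd_max]
    exact ⟨dg_add (h i).1 (h' i).1, dg_add (h i).2 (h' i).2⟩
  mul := by
    intro a a' b b' h h' i
    simp only [opsP, opsD, bd_add]
    refine ⟨?_, ?_⟩
    · have := dg_add (dg_mul (h i).1 (h' i).1) (dg_mul (h i).2 (h' i).2)
      rwa [max_self] at this
    · have := dg_add (dg_mul (h i).1 (h' i).2) (dg_mul (h i).2 (h' i).1)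
      rwa [max_self] at this
  sub := by
    intro a a' b b' h h' i
    simp only [opsP, opsD, bd_max]
    exact ⟨dg_add (h i).1 (h' i).2, dg_add (h i).2 (h' i).1⟩
  cst := by
    intro c i
    simp only [opsP, opsD]
    rw [dg_nat, dg_nat]
    exact ⟨Nat.zero_le _, Nat.zero_le _⟩

/-! ### the linear forms -/

section forms
variable {S S' : Type} [CommSemiring S] [CommSemiring S']

theorem map_lfP (φ : S →+* S') (a b c : ℕ) (v : Fin 4 → S) :
    mapP φ (lfP a b c v) = lfP a b c (fun i => φ (v i)) := by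
  simp [mapP, lfP]

theorem map_lfR (φ : S →+* S') (a b c : ℕ) (v : Fin 4 → S) :
    mapP φ (lfR a b c v) = lfR a b c (fun i => φ (v i)) := by
  simp [mapP, lfR]

theorem map_T1S (φ : S →+* S') (v : Fin 4 → S) : mapP φ (T1S v) = T1S (fun i => φ (v i)) :=
  rel_G1G (relMap φ) (map_lfP φ _ _ _ v) (map_lfP φ _ _ _ v) (map_lfP φ _ _ _ v)
    (map_lfP φ _ _ _ v) (map_lfR φ _ _ _ v) (map_lfR φ _ _ _ v) (map_lfR φ _ _ _ v)
    (map_lfR φ _ _ _ v)

theorem map_T2S (φ : S →+* S') (v : Fin 4 → S) : mapP φ (T2S v) = T2S (fun i => φ (v i)) :=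
  (relMap φ).mul ((relMap φ).mul (map_lfP φ _ _ _ v) (map_lfR φ _ _ _ v))
    (rel_G2G (relMap φ) (map_lfP φ _ _ _ v) (map_lfP φ _ _ _ v) (map_lfP φ _ _ _ v)
    (map_lfP φ _ _ _ v) (map_lfR φ _ _ _ v) (map_lfR φ _ _ _ v) (map_lfR φ _ _ _ v)
    (map_lfR φ _ _ _ v))

theorem map_TOS (φ : S →+* S') (v : Fin 4 → S) : mapP φ (TOS v) = TOS (fun i => φ (v i)) :=
  rel_O4G (relMap φ) (map_lfR φ _ _ _ v) (map_lfR φ _ _ _ v) (map_lfR φ _ _ _ v)
    (map_lfR φ _ _ _ v)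

end forms

theorem dg_X (i j : Fin 4) : (X j : MP).degreeOf i ≤ if i = j then 1 else 0 := by
  rw [degreeOf_X]

theorem dg_lfP (a b c : ℕ) : DgR (lfP a b c (X : Fin 4 → MP)) (1, 0) := by
  intro i
  refine ⟨?_, by simp [lfP]⟩
  have h := dg_add (dg_add (dg_nat a i).le (dg_mul (dg_nat b i).le (dg_X i 0)))
    (dg_mul (dg_nat c i).le (dg_X i 1))
  refine h.trans ?_
  unfold bd
  fin_cases i <;> simp

theorem dg_lfR (a b c : ℕ) : DgR (lfR a b c (X : Fin 4 → MP)) (0, 1) := by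
  intro i
  refine ⟨?_, by simp [lfR]⟩
  have h := dg_add (dg_add (dg_nat a i).le (dg_mul (dg_nat b i).le (dg_X i 2)))
    (dg_mul (dg_nat c i).le (dg_X i 3))
  refine h.trans ?_
  unfold bd
  fin_cases i <;> simp

theorem dg_T1S : DgR (T1S (X : Fin 4 → MP)) (8, 8) := by
  have h := rel_G1G relDeg (dg_lfP 1 0 0) (dg_lfP 1 1 0) (dg_lfP 1 1 1) (dg_lfP 3 2 1)
    (dg_lfR 168 101 34) (dg_lfR 168 101 67) (dg_lfR 168 134 67) (dg_lfR 504 336 168)
  have e : G1G opsD (1, 0) (1, 0) (1, 0) (1, 0) (0, 1) (0, 1) (0, 1) (0, 1) = (8, 8) := by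
    decide +kernel
  rw [e] at h
  exact h

theorem dg_T2S : DgR (T2S (X : Fin 4 → MP)) (11, 11) := by
  have h := relDeg.mul (relDeg.mul (dg_lfP 3 2 1) (dg_lfR 504 336 168))
    (rel_G2G relDeg (dg_lfP 1 0 0) (dg_lfP 1 1 0) (dg_lfP 1 1 1) (dg_lfP 3 2 1)
    (dg_lfR 168 101 34) (dg_lfR 168 101 67) (dg_lfR 168 134 67) (dg_lfR 504 336 168))
  have e : opsD.mul (opsD.mul (1, 0) (0, 1))
      (G2G opsD (1, 0) (1, 0) (1, 0) (1, 0) (0, 1) (0, 1) (0, 1) (0, 1)) = (11, 11) := by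
    decide +kernel
  rw [e] at h
  exact h

theorem dg_TOS : DgR (TOS (X : Fin 4 → MP)) (0, 4) := by
  have h := rel_O4G relDeg (dg_lfR 168 101 34) (dg_lfR 168 101 67) (dg_lfR 168 134 67)
    (dg_lfR 504 336 168)
  have e : O4G opsD (0, 1) (0, 1) (0, 1) (0, 1) = (0, 4) := by
    decide +kernel
  rw [e] at h
  exact h

/-- soundness of the packed comparison -/
theorem nonneg_of_chk (T : ∀ {S : Type} [CommSemiring S], (Fin 4 → S) → S × S)
    (hmap : ∀ {S' : Type} [CommSemiring S'] (φ : MP →+* S'),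
      mapP φ (T (X : Fin 4 → MP)) = T (fun i => φ (X i)))
    (d b : ℕ) (hb : 1 ≤ b) (k : ℕ × ℕ) (hk1 : k.1 ≤ d) (hk2 : k.2 ≤ d)
    (hdeg : DgR (T (X : Fin 4 → MP)) k) (hchk : chkN T d b = true)
    (x : Fin 4 → ℝ) (hx : ∀ i, 0 ≤ x i) : 0 ≤ (T x).1 - (T x).2 := by
  have hbd : ∀ i, bd k i ≤ d := by
    intro i
    unfold bd
    split_ifs
    · exact hk1
    · exact hk2
  unfold chkN at hchk
  simp only [Bool.and_eq_true, decide_eq_true_eq] at hchk
  obtain ⟨⟨c1, c2⟩, c3⟩ := hchk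
  have ev : ∀ {S' : Type} [CommSemiring S'] (f : ℕ →+* S') (y : Fin 4 → S'),
      (eval₂ f y (T (X : Fin 4 → MP)).1, eval₂ f y (T (X : Fin 4 → MP)).2) = T y := by
    intro S' _ f y
    have h := hmap (eval₂Hom f y)
    simp only [eval₂Hom_X'] at h
    exact h
  have e1 := ev (RingHom.id ℕ) (fun _ => 1)
  have e2 := ev (RingHom.id ℕ) (fun i : Fin 4 => (2 ^ b) ^ ((d + 1) ^ (i : ℕ)))
  have e3 := ev (Nat.castRingHom ℝ) x
  rw [← e1] at c1 c2
  rw [← e2] at c3
  rw [← e3]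
  exact sub_nonneg.2 (kron_le hb _ _ (fun i => ((hdeg i).1).trans (hbd i))
    (fun i => ((hdeg i).2).trans (hbd i)) c1 c2 c3 x hx)

end Vale.Agent.P154N
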