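import Vale.Agent.P154.N.Defs3

namespace Vale.Agent.P154N

open Vale.Agent.P154Q Finset

/-- explicit form of the first polynomial bound at `Y = 1`, with `D = 3 S`, `t = D - 1` -/
theorem f1G_one_pf (S Q : ℝ) : f1G opsR S Q 1 = 27 * Q * (17 * (1 - (3 * S - 1) + (3 * S - 1) ^ 2
    - (3 * S - 1) ^ 3 + (3 * S - 1) ^ 4 - (3 * S - 1) ^ 5) + 28 * (3 * S - 1) ^ 6) - 51 * S := by
  simp only [f1G, U1G, homG, powG, opsR]
  push_cast
  ring

theorem inChN_low {r : V 3} (hr : InChN r) (i : Fin 3) : 34 / 168 < r i := by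
  have h := hr.2
  rw [Fin.sum_univ_three] at h
  have h0 := hr.1 0
  have h1 := hr.1 1
  have h2 := hr.1 2
  fin_cases i
  · show 34 / 168 < r 0
    linarith
  · show 34 / 168 < r 1
    linarith
  · show 34 / 168 < r 2
    linarith

theorem sum_low3 {p r : V 3} (hp : InSimplex p) (hr : InChN r) (s : Equiv.Perm (Fin 3)) :
    34 / 168 < ∑ i, p i * r (s i) := by
  calc (34 / 168 : ℝ) = ∑ i, p i * (34 / 168) := by rw [← Finset.sum_mul, hp.2, one_mul]
    _ < ∑ i, p i * r (s i) :=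
      Finset.sum_lt_sum_of_nonempty ⟨0, mem_univ _⟩
        (fun i _ => mul_lt_mul_of_pos_left (inChN_low hr _) (hp.1 i))

/-- one term of the first average is below its polynomial bound -/
theorem term_a3_pf {p r : V 3} (hp : InSimplex p) (hr : InChN r) (s : Equiv.Perm (Fin 3)) :
    Dm p (r ∘ s) * aF (merge p (r ∘ s))
      ≤ f1G opsR (∑ i, p i * r (s i)) (∑ i, (p i * r (s i)) ^ 2) 1 / 34 := by
  have hSlo := sum_low3 hp hr s
  have hQ0 : 0 ≤ ∑ i, (p i * r (s i)) ^ 2 := Finset.sum_nonneg (fun i _ => sq_nonneg _)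
  have hid : Dm p (r ∘ s) * aF (merge p (r ∘ s))
      = (9 * (∑ i, (p i * r (s i)) ^ 2) * (1 / ∑ i, p i * r (s i))
          - 3 * ∑ i, p i * r (s i)) / 2 := by
    have hS0 : (∑ i, p i * r (s i)) ≠ 0 := by
      have : (0 : ℝ) < ∑ i, p i * r (s i) := lt_trans (by norm_num) hSlo
      exact this.ne'
    unfold Dm aF merge
    simp only [Function.comp, div_pow, ← Finset.sum_div]
    push_cast
    field_simp
    ring
  rw [hid, f1G_one_pf]
  generalize (∑ i, p i * r (s i)) = S at hSlo ⊢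
  generalize (∑ i, (p i * r (s i)) ^ 2) = Q at hQ0 ⊢
  have hS : 0 < S := lt_trans (by norm_num) hSlo
  have hu : 17 ≤ 3 * S * (17 * (1 - (3 * S - 1) + (3 * S - 1) ^ 2
      - (3 * S - 1) ^ 3 + (3 * S - 1) ^ 4 - (3 * S - 1) ^ 5) + 28 * (3 * S - 1) ^ 6) := by
    have e : 3 * S * (17 * (1 - (3 * S - 1) + (3 * S - 1) ^ 2
      - (3 * S - 1) ^ 3 + (3 * S - 1) ^ 4 - (3 * S - 1) ^ 5) + 28 * (3 * S - 1) ^ 6) - 17
        = (3 * S - 1) ^ 6 * (28 * (3 * S) - 17) := by ring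
    have h1 : 0 ≤ (3 * S - 1) ^ 6 * (28 * (3 * S) - 17) :=
      mul_nonneg (by positivity) (by linarith)
    linarith
  generalize (17 * (1 - (3 * S - 1) + (3 * S - 1) ^ 2
      - (3 * S - 1) ^ 3 + (3 * S - 1) ^ 4 - (3 * S - 1) ^ 5) + 28 * (3 * S - 1) ^ 6) = u at hu ⊢
  have h1 : 1 / S ≤ 3 * u / 17 := by
    rw [div_le_div_iff₀ hS (by norm_num)]
    linarith
  have h2 : 9 * Q * (1 / S) ≤ 9 * Q * (3 * u / 17) :=
    mul_le_mul_of_nonneg_left h1 (by linarith)
  linarith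

theorem avgM_aF_le3_pf {p r : V 3} (hp : InSimplex p) (hr : InChN r) :
    avgM aF p r ≤ Phi1 p r / 204 := by
  unfold avgM Phi1
  have h6 : ((3 : ℕ).factorial : ℝ) = 6 := by norm_num [Nat.factorial]
  rw [h6, div_le_div_iff₀ (by norm_num) (by norm_num)]
  have h := Finset.sum_le_sum (fun s (_ : s ∈ (univ : Finset (Equiv.Perm (Fin 3)))) =>
    term_a3_pf hp hr s)
  rw [← Finset.sum_div] at h
  linarith

end Vale.Agent.P154N
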