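import Vale.Agent.P154.N.Terms3a

namespace Vale.Agent.P154N

open Vale.Agent.P154Q Finset

/-- explicit form of the second polynomial bound at `Y = 1` -/
theorem f2G_one_pf (S Q C : ℝ) : f2G opsR S Q C 1 =
    165240 * C * (100 * (1 - 2 * (3 * S - 1) + 3 * (3 * S - 1) ^ 2 - 4 * (3 * S - 1) ^ 3
      + 5 * (3 * S - 1) ^ 4 - 6 * (3 * S - 1) ^ 5) + 571 * (3 * S - 1) ^ 6)
    - 181656 * Q * (17 * (1 - (3 * S - 1) + (3 * S - 1) ^ 2 - (3 * S - 1) ^ 3 + (3 * S - 1) ^ 4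
      - (3 * S - 1) ^ 5) + 28 * (3 * S - 1) ^ 6)
    - 532899 * Q ^ 2 * (50 * (1 - 3 * (3 * S - 1) + 6 * (3 * S - 1) ^ 2 - 10 * (3 * S - 1) ^ 3
      + 15 * (3 * S - 1) ^ 4 - 21 * (3 * S - 1) ^ 5) + 2767 * (3 * S - 1) ^ 6)
    + 248778 * S := by
  simp only [f2G, U1G, L2G, U3G, homG, powG, opsR]
  push_cast
  ring

theorem sum_high3 {p r : V 3} (hp : InSimplex p) (hr : InChN r) (s : Equiv.Perm (Fin 3)) :
    ∑ i, p i * r (s i) < 67 / 168 := by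
  calc ∑ i, p i * r (s i) < ∑ i, p i * (67 / 168) :=
      Finset.sum_lt_sum_of_nonempty ⟨0, mem_univ _⟩
        (fun i _ => mul_lt_mul_of_pos_left (hr.1 _) (hp.1 i))
    _ = 67 / 168 := by rw [← Finset.sum_mul, hp.2, one_mul]

/-- one term of the second average is above its polynomial bound -/
theorem term_o3_pf {p r : V 3} (hp : InSimplex p) (hr : InChN r) (s : Equiv.Perm (Fin 3)) :
    f2G opsR (∑ i, p i * r (s i)) (∑ i, (p i * r (s i)) ^ 2) (∑ i, (p i * r (s i)) ^ 3) 1 / 68000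
      ≤ Dm p (r ∘ s) * oA (merge p (r ∘ s)) := by
  have hSlo := sum_low3 hp hr s
  have hShi := sum_high3 hp hr s
  have hQ0 : 0 ≤ ∑ i, (p i * r (s i)) ^ 2 := Finset.sum_nonneg (fun i _ => sq_nonneg _)
  have hC0 : 0 ≤ ∑ i, (p i * r (s i)) ^ 3 :=
    Finset.sum_nonneg (fun i _ => pow_nonneg (mul_nonneg (hp.1 i).le
      (le_trans (by norm_num) (inChN_low hr (s i)).le)) 3)
  have hid : Dm p (r ∘ s) * oA (merge p (r ∘ s))
      = 243 * (∑ i, (p i * r (s i)) ^ 3) * (1 / (3 * ∑ i, p i * r (s i)) ^ 2)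
        - 22707 / 500 * (∑ i, (p i * r (s i)) ^ 2) * (1 / (3 * ∑ i, p i * r (s i)))
        - 31347 / 80 * (∑ i, (p i * r (s i)) ^ 2) ^ 2 * (1 / (3 * ∑ i, p i * r (s i)) ^ 3)
        + 2439 / 2000 * (3 * ∑ i, p i * r (s i)) := by
    have hS0 : (∑ i, p i * r (s i)) ≠ 0 := by
      have : (0 : ℝ) < ∑ i, p i * r (s i) := lt_trans (by norm_num) hSlo
      exact this.ne'
    unfold Dm oA A3q aF merge
    simp only [Function.comp, div_pow, ← Finset.sum_div]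
    push_cast
    field_simp
    ring
  rw [hid, f2G_one_pf]
  generalize (∑ i, p i * r (s i)) = S at hSlo hShi ⊢
  generalize (∑ i, (p i * r (s i)) ^ 2) = Q at hQ0 ⊢
  generalize (∑ i, (p i * r (s i)) ^ 3) = C at hC0 ⊢
  have hS : 0 < S := lt_trans (by norm_num) hSlo
  have hD : 0 < 3 * S := by linarith
  have hu1 : 17 ≤ 3 * S * (17 * (1 - (3 * S - 1) + (3 * S - 1) ^ 2
      - (3 * S - 1) ^ 3 + (3 * S - 1) ^ 4 - (3 * S - 1) ^ 5) + 28 * (3 * S - 1) ^ 6) := by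
    have e : 3 * S * (17 * (1 - (3 * S - 1) + (3 * S - 1) ^ 2
      - (3 * S - 1) ^ 3 + (3 * S - 1) ^ 4 - (3 * S - 1) ^ 5) + 28 * (3 * S - 1) ^ 6) - 17
        = (3 * S - 1) ^ 6 * (28 * (3 * S) - 17) := by ring
    have h1 : 0 ≤ (3 * S - 1) ^ 6 * (28 * (3 * S) - 17) :=
      mul_nonneg (by positivity) (by linarith)
    linarith
  have hl2 : (100 * (1 - 2 * (3 * S - 1) + 3 * (3 * S - 1) ^ 2 - 4 * (3 * S - 1) ^ 3
      + 5 * (3 * S - 1) ^ 4 - 6 * (3 * S - 1) ^ 5) + 571 * (3 * S - 1) ^ 6) * (3 * S) ^ 2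
        ≤ 100 := by
    have e : 100 - (100 * (1 - 2 * (3 * S - 1) + 3 * (3 * S - 1) ^ 2 - 4 * (3 * S - 1) ^ 3
      + 5 * (3 * S - 1) ^ 4 - 6 * (3 * S - 1) ^ 5) + 571 * (3 * S - 1) ^ 6) * (3 * S) ^ 2
        = (3 * S - 1) ^ 6 * (100 * (1 + 6 * (3 * S)) - 571 * (3 * S) ^ 2) := by ring
    have hb : 0 ≤ 100 * (1 + 6 * (3 * S)) - 571 * (3 * S) ^ 2 := by
      have := mul_nonneg (show (0 : ℝ) ≤ 3 * S - 17 / 28 by linarith)
        (show (0 : ℝ) ≤ 67 / 56 - 3 * S by linarith)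
      nlinarith
    have h1 := mul_nonneg (show (0 : ℝ) ≤ (3 * S - 1) ^ 6 by positivity) hb
    linarith
  have hu3 : 50 ≤ (3 * S) ^ 3 * (50 * (1 - 3 * (3 * S - 1) + 6 * (3 * S - 1) ^ 2
      - 10 * (3 * S - 1) ^ 3 + 15 * (3 * S - 1) ^ 4 - 21 * (3 * S - 1) ^ 5)
      + 2767 * (3 * S - 1) ^ 6) := by
    have e : (3 * S) ^ 3 * (50 * (1 - 3 * (3 * S - 1) + 6 * (3 * S - 1) ^ 2
      - 10 * (3 * S - 1) ^ 3 + 15 * (3 * S - 1) ^ 4 - 21 * (3 * S - 1) ^ 5)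
      + 2767 * (3 * S - 1) ^ 6) - 50
        = (3 * S - 1) ^ 6 * (2767 * (3 * S) ^ 3 - 1050 * (3 * S) ^ 2 - 300 * (3 * S) - 50) := by
      ring
    have hb : 0 ≤ 2767 * (3 * S) ^ 3 - 1050 * (3 * S) ^ 2 - 300 * (3 * S) - 50 := by
      have hv : (0 : ℝ) ≤ 3 * S - 17 / 28 := by linarith
      have hv2 := mul_nonneg hv hv
      have hv3 := mul_nonneg hv2 hv
      nlinarith
    have h1 := mul_nonneg (show (0 : ℝ) ≤ (3 * S - 1) ^ 6 by positivity) hb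
    linarith
  generalize (17 * (1 - (3 * S - 1) + (3 * S - 1) ^ 2
      - (3 * S - 1) ^ 3 + (3 * S - 1) ^ 4 - (3 * S - 1) ^ 5) + 28 * (3 * S - 1) ^ 6) = u1
      at hu1 ⊢
  generalize (100 * (1 - 2 * (3 * S - 1) + 3 * (3 * S - 1) ^ 2 - 4 * (3 * S - 1) ^ 3
      + 5 * (3 * S - 1) ^ 4 - 6 * (3 * S - 1) ^ 5) + 571 * (3 * S - 1) ^ 6) = l2 at hl2 ⊢
  generalize (50 * (1 - 3 * (3 * S - 1) + 6 * (3 * S - 1) ^ 2
      - 10 * (3 * S - 1) ^ 3 + 15 * (3 * S - 1) ^ 4 - 21 * (3 * S - 1) ^ 5)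
      + 2767 * (3 * S - 1) ^ 6) = u3 at hu3 ⊢
  have h1 : 1 / (3 * S) ≤ u1 / 17 := by
    rw [div_le_div_iff₀ hD (by norm_num)]
    linarith
  have h2 : l2 / 100 ≤ 1 / (3 * S) ^ 2 := by
    rw [div_le_div_iff₀ (by norm_num) (by positivity)]
    linarith
  have h3 : 1 / (3 * S) ^ 3 ≤ u3 / 50 := by
    rw [div_le_div_iff₀ (by positivity) (by norm_num)]
    linarith
  have k1 := mul_le_mul_of_nonneg_left h1 hQ0
  have k2 := mul_le_mul_of_nonneg_left h2 hC0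
  have k3 := mul_le_mul_of_nonneg_left h3 (sq_nonneg Q)
  generalize 1 / (3 * S) = X1 at k1 ⊢
  generalize 1 / (3 * S) ^ 2 = X2 at k2 ⊢
  generalize 1 / (3 * S) ^ 3 = X3 at k3 ⊢
  linarith

theorem le_avgM_oA3_pf {p r : V 3} (hp : InSimplex p) (hr : InChN r) :
    Phi2 p r / 408000 ≤ avgM oA p r := by
  unfold avgM Phi2
  have h6 : ((3 : ℕ).factorial : ℝ) = 6 := by norm_num [Nat.factorial]
  rw [h6, div_le_div_iff₀ (by norm_num) (by norm_num)]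
  have h := Finset.sum_le_sum (fun s (_ : s ∈ (univ : Finset (Equiv.Perm (Fin 3)))) =>
    term_o3_pf hp hr s)
  rw [← Finset.sum_div] at h
  linarith

end Vale.Agent.P154N
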